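import Vale.Agent.P088.H198.Defs4

/-!
# P088, stage J: the connection `i α` on a line bundle as an unknown; definitions and rows J1-J3, J7
-/

open MeasureTheory Set
open scoped ContDiff Matrix

noncomputable section

namespace Vale.Agent.P088.LR.J

open CF

variable {n : ℕ}

/-- Real one-forms and vector fields. -/
abbrev VF (n : ℕ) := Fin n → V n → ℝ

/-- Smooth. -/
def SmF (α : VF n) : Prop := ∀ i, ContDiff ℝ ∞ (α i)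

/-- `(∂_i + i e α_i) u`. -/
def cdm (e : ℝ) (α : VF n) (i : Fin n) (u : V n → ℂ) (x : V n) : ℂ :=
  pd i u x + Complex.I * ((e * α i x : ℝ) : ℂ) * u x

/-- `∫_Ω s((∇ + iα) u, (∇ - iα) v)`, complex bilinear. -/
def ba (Ω : Set (V n)) (s : MF n) (α : VF n) (u v : V n → ℂ) : ℂ :=
  ∫ x in Ω, ∑ i, ∑ j, (s x i j : ℂ) * cdm 1 α i u x * cdm (-1) α j v x

/-- `L u = ∑ (∂_i + i e α_i) (s_ij (∂_j + i e α_j) u)`. -/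
def la (e : ℝ) (s : MF n) (α : VF n) (u : V n → ℂ) (x : V n) : ℂ :=
  ∑ i, cdm e α i (fun y => ∑ j, (s y i j : ℂ) * cdm e α j u y) x

/-- `P w = div (s ∇ w) + 2 i e J·∇ w`. -/
def pj (e : ℝ) (s : MF n) (J : VF n) (w : V n → ℂ) (x : V n) : ℂ :=
  dv s w x + 2 * Complex.I * (e : ℂ) * ∑ i, (J i x : ℂ) * pd i w x

/-- `∑ ∂_i J_i`. -/
def dvJ (J : VF n) (x : V n) : ℝ := ∑ i, pd i (J i) x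

/-- `∫_Ω J·(w₁ ∇w₂ - w₂ ∇w₁)`. -/
def jl (Ω : Set (V n)) (J : VF n) (w₁ w₂ : V n → ℂ) : ℂ :=
  ∫ x in Ω, ∑ i, (J i x : ℂ) * (w₁ x * pd i w₂ x - w₂ x * pd i w₁ x)

/-- (J1) orthogonality for `(s₁, α₁)`, `(s₂, α₂)`. -/
def OrA (Ω : Set (V n)) (s₁ : MF n) (α₁ : VF n) (s₂ : MF n) (α₂ : VF n) : Prop :=
  ∀ u v : V n → ℂ, ContDiff ℝ ∞ u → ContDiff ℝ ∞ v → (∀ x ∈ Ω, la 1 s₁ α₁ u x = 0) →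
    (∀ x ∈ Ω, la (-1) s₂ α₂ v x = 0) → ba Ω s₁ α₁ u v = ba Ω s₂ α₂ u v

/-- The same with the roles exchanged (follows by complex conjugation). -/
def OrA' (Ω : Set (V n)) (s₁ : MF n) (α₁ : VF n) (s₂ : MF n) (α₂ : VF n) : Prop :=
  ∀ u v : V n → ℂ, ContDiff ℝ ∞ u → ContDiff ℝ ∞ v → (∀ x ∈ Ω, la 1 s₂ α₂ u x = 0) →
    (∀ x ∈ Ω, la (-1) s₁ α₁ v x = 0) → ba Ω s₁ α₁ u v = ba Ω s₂ α₂ u v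

/-- (J3) orthogonality for the reduced pairs `(s₁, J₁)`, `(s₂, J₂)`. -/
def StJ (Ω : Set (V n)) (s₁ : MF n) (J₁ : VF n) (s₂ : MF n) (J₂ : VF n) : Prop :=
  ∀ w₁ w₂ : V n → ℂ, ContDiff ℝ ∞ w₁ → ContDiff ℝ ∞ w₂ → (∀ x ∈ Ω, pj 1 s₁ J₁ w₁ x = 0) →
    (∀ x ∈ Ω, pj (-1) s₂ J₂ w₂ x = 0) →
    bl Ω (fun x => s₂ x - s₁ x) w₁ w₂ +
      Complex.I * jl Ω (fun i x => J₂ i x - J₁ i x) w₁ w₂ = 0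

/-- The same with the roles exchanged (follows by complex conjugation). -/
def StJ' (Ω : Set (V n)) (s₁ : MF n) (J₁ : VF n) (s₂ : MF n) (J₂ : VF n) : Prop :=
  ∀ w₁ w₂ : V n → ℂ, ContDiff ℝ ∞ w₁ → ContDiff ℝ ∞ w₂ → (∀ x ∈ Ω, pj 1 s₂ J₂ w₁ x = 0) →
    (∀ x ∈ Ω, pj (-1) s₁ J₁ w₂ x = 0) →
    bl Ω (fun x => s₂ x - s₁ x) w₁ w₂ +
      Complex.I * jl Ω (fun i x => J₂ i x - J₁ i x) w₁ w₂ = 0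

/-- The reduced density `|E|² s`. -/
def rs (s : MF n) (E : V n → ℂ) : MF n := fun x => ‖E x‖ ^ 2 • s x

/-- The reduced current `J_i = ∑_j s_ij Im (conj E (∂_j + iα_j) E)`. -/
def rj (s : MF n) (α : VF n) (E : V n → ℂ) : VF n := fun i x =>
  ∑ j, s x i j * ((starRingEnd ℂ) (E x) * cdm 1 α j E x).im

/-- The push-forward of a vector density under `H = id + w`, `K = H⁻¹`. -/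
def pvf (J : VF n) (w K : V n → V n) : VF n := fun i y =>
  (jm w (K y)).det⁻¹ * ∑ j, jm w (K y) i j * J j (K y)

/-- The push-forward of a one-form under `H = id + w`, `K = H⁻¹`. -/
def pof (α : VF n) (K : V n → V n) : VF n := fun i y => ∑ j, pd i K y j * α j (K y)

/-! ## Rows -/

/-- (J_ORT) the data of the pairs (`N = 1`, `A = iα`) give the orthogonality. -/
def RowORT : Prop := ∀ {n : ℕ} (Ω : Set (V n)), IsOpen Ω → Bornology.IsBounded Ω →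
  ∀ g₁ g₂ : MF n, SmM g₁ → SmM g₂ → (∀ x, (g₁ x).PosDef) → (∀ x, (g₂ x).PosDef) →
  ∀ α₁ α₂ : VF n, SmF α₁ → SmF α₂ →
  SDU Ω g₁ (fun i x => (Complex.I * (α₁ i x : ℂ)) • (1 : Matrix (Fin 1) (Fin 1) ℂ))
    g₂ (fun i x => (Complex.I * (α₂ i x : ℂ)) • (1 : Matrix (Fin 1) (Fin 1) ℂ)) →
  OrA Ω (sg g₁) α₁ (sg g₂) α₂

/-- (J_CONJ) conjugation. -/
def RowCONJ : Prop := ∀ {n : ℕ} (Ω : Set (V n)) (s₁ s₂ : MF n), SmM s₁ → SmM s₂ →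
  (∀ x, (s₁ x).IsSymm) → (∀ x, (s₂ x).IsSymm) →
  (∀ α₁ α₂ : VF n, SmF α₁ → SmF α₂ → OrA Ω s₁ α₁ s₂ α₂ → OrA' Ω s₁ α₁ s₂ α₂) ∧
  ∀ J₁ J₂ : VF n, SmF J₁ → SmF J₂ → StJ Ω s₁ J₁ s₂ J₂ → StJ' Ω s₁ J₁ s₂ J₂

/-- (J_E) solutions `E₁, E₂` near `1`, equal off `Ω`. -/
def RowE : Prop := ∀ (n M : ℕ), 1 ≤ n → ∃ C ε₀ : ℝ, 0 < C ∧ 0 < ε₀ ∧ ∀ (Ω : Set (V n)),
  IsOpen Ω → interior (closure Ω) = Ω → Ω ⊆ core n → ∀ s₁ s₂ : MF n, SmM s₁ → SmM s₂ →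
  (∀ x, (s₁ x).IsSymm) → (∀ x, (s₂ x).IsSymm) → (∀ x ∉ core n, s₁ x = 1) →
  (∀ x ∉ Ω, s₂ x = s₁ x) → ∀ α₁ α₂ : VF n, SmF α₁ → SmF α₂ → (∀ i, ∀ x ∉ core n, α₁ i x = 0) →
  (∀ i, ∀ x ∉ Ω, α₂ i x = α₁ i x) → OrA Ω s₁ α₁ s₂ α₂ → ∀ δ, 0 ≤ δ → δ ≤ ε₀ →
  (∀ i j, nm (M + 1) (cf 0 (ent s₁ i j)) ≤ δ) → (∀ i j, nm (M + 1) (cf 0 (ent s₂ i j)) ≤ δ) →
  (∀ i, nm (M + 1) (cf 0 (cx (α₁ i))) ≤ δ) → (∀ i, nm (M + 1) (cf 0 (cx (α₂ i))) ≤ δ) →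
  ∃ E₁ E₂ : V n → ℂ, ContDiff ℝ ∞ E₁ ∧ ContDiff ℝ ∞ E₂ ∧ (∀ x ∉ Ω, E₂ x = E₁ x) ∧
    Cl (M + 1) (C * δ) (fun x => E₁ x - 1) ∧ Cl (M + 1) (C * δ) (fun x => E₂ x - 1) ∧
    (∀ x ∈ core n, la 1 s₁ α₁ E₁ x = 0) ∧ ∀ x ∈ core n, la 1 s₂ α₂ E₂ x = 0

/-- (J_RED) the reduction to `(|E|² s, J)`. -/
def RowRED : Prop := ∀ {n : ℕ} (Ω : Set (V n)), IsOpen Ω → Bornology.IsBounded Ω →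
  interior (closure Ω) = Ω → ∀ s₁ s₂ : MF n, SmM s₁ → SmM s₂ →
  (∀ x, (s₁ x).IsSymm) → (∀ x, (s₂ x).IsSymm) → (∀ x ∉ Ω, s₂ x = s₁ x) →
  ∀ α₁ α₂ : VF n, SmF α₁ → SmF α₂ → (∀ i, ∀ x ∉ Ω, α₂ i x = α₁ i x) →
  ∀ E₁ E₂ : V n → ℂ, ContDiff ℝ ∞ E₁ → ContDiff ℝ ∞ E₂ → (∀ x, E₁ x ≠ 0) → (∀ x, E₂ x ≠ 0) →
  (∀ x ∉ Ω, E₂ x = E₁ x) → (∀ x ∈ Ω, la 1 s₁ α₁ E₁ x = 0) → (∀ x ∈ Ω, la 1 s₂ α₂ E₂ x = 0) →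
  OrA Ω s₁ α₁ s₂ α₂ →
  (∀ x ∈ Ω, dvJ (rj s₁ α₁ E₁) x = 0) ∧ (∀ x ∈ Ω, dvJ (rj s₂ α₂ E₂) x = 0) ∧
  StJ Ω (rs s₁ E₁) (rj s₁ α₁ E₁) (rs s₂ E₂) (rj s₂ α₂ E₂)

/-- (J_SM) smoothness and smallness of the reduced pair. -/
def RowSMJ : Prop := ∀ (n k : ℕ) (ε : ℝ), 0 < ε → ∃ δ > 0, ∀ (s : MF n) (α : VF n)
  (E : V n → ℂ), SmM s → SmF α → ContDiff ℝ ∞ E →
  (∀ i j, Cl k δ (fun x => s x i j - (1 : Matrix (Fin n) (Fin n) ℝ) i j)) →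
  (∀ i, Cl k δ (α i)) → Cl (k + 1) δ (fun x => E x - 1) →
  SmM (rs s E) ∧ SmF (rj s α E) ∧ (∀ x, E x ≠ 0) ∧
  (∀ i j, Cl k ε (fun x => rs s E x i j - (1 : Matrix (Fin n) (Fin n) ℝ) i j)) ∧
  ∀ i, Cl k ε (rj s α E i)

/-- (J_REC) the conclusion: equal reduced pairs after the push-forward. -/
def RowREC : Prop := ∀ {n : ℕ}, 3 ≤ n → ∃ ε : ℝ, 0 < ε ∧ ∀ (Ω : Set (V n)), IsOpen Ω →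
  Ω ⊆ core n → interior (closure Ω) = Ω → ∀ s₁ s₂ : MF n, SmM s₁ → SmM s₂ →
  (∀ x, (s₁ x).PosDef) → (∀ x, (s₂ x).PosDef) → (∀ x ∉ Ω, s₂ x = s₁ x) →
  ∀ α₁ α₂ : VF n, SmF α₁ → SmF α₂ → (∀ i, ∀ x ∉ Ω, α₂ i x = α₁ i x) →
  ∀ E₁ E₂ : V n → ℂ, ContDiff ℝ ∞ E₁ → ContDiff ℝ ∞ E₂ → (∀ x, E₁ x ≠ 0) → (∀ x, E₂ x ≠ 0) →
  (∀ x ∉ Ω, E₂ x = E₁ x) → (∀ x ∈ Ω, la 1 s₁ α₁ E₁ x = 0) → (∀ x ∈ Ω, la 1 s₂ α₂ E₂ x = 0) →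
  (∀ x ∈ Ω, ∀ i j, |rs s₁ E₁ x i j - (1 : Matrix (Fin n) (Fin n) ℝ) i j| ≤ ε) →
  (∀ x ∈ Ω, ∀ i, |rj s₁ α₁ E₁ i x| ≤ ε) →
  ∀ w K, Dif Ω w K → (∀ x, psh (rs s₂ E₂) w K x = rs s₁ E₁ x) →
  (∀ i x, pvf (rj s₂ α₂ E₂) w K i x = rj s₁ α₁ E₁ i x) →
  (∀ x, psh s₂ w K x = s₁ x) ∧ ∃ U : V n → ℂ, ContDiff ℝ ∞ U ∧ (∀ x, ‖U x‖ = 1) ∧
    (∀ x ∉ Ω, U x = 1) ∧ ∀ i, ∀ x, Complex.I * (α₂ i x : ℂ) =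
      Complex.I * ((∑ j, jm w x j i * α₁ j (x + w x) : ℝ) : ℂ) +
        (starRingEnd ℂ) (U x) * pd i U x

end Vale.Agent.P088.LR.J
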