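import Vale.Agent.P088.H198.Defs2

/-!
# P088, local rigidity of the metrics `φ^{4/(n-2)} e`, `φ > 0` harmonic; rows
-/

open MeasureTheory Set
open scoped ContDiff Matrix

noncomputable section

namespace Vale.Agent.P088.LR

variable {n : ℕ}

/-- `s₁ = φ² · 1`, the density of the metric `φ^{4/(n-2)} e`. -/
def ph2 (φ : V n → ℝ) : MF n := fun x => (φ x) ^ 2 • (1 : Matrix (Fin n) (Fin n) ℝ)

/-- The conformal factor `φ^{4/(n-2)}`. -/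
def cg (φ : V n → ℝ) (x : V n) : ℝ := (φ x) ^ ((4 : ℝ) / ((n : ℝ) - 2))

/-- The metric `φ^{4/(n-2)} e`. -/
def gph (φ : V n → ℝ) : MF n := fun x => cg φ x • (1 : Matrix (Fin n) (Fin n) ℝ)

/-- `φ` is smooth, positive. -/
def SmP (φ : V n → ℝ) : Prop := ContDiff ℝ ∞ φ ∧ ∀ x, 0 < φ x

/-- `φ` as a complex function. -/
def cx (φ : V n → ℝ) : V n → ℂ := fun x => ((φ x : ℝ) : ℂ)

/-- Orthogonality identity of `s₁` and `s`. -/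
def StarP (Ω : Set (V n)) (s₁ s : MF n) : Prop :=
  ∀ U W : V n → ℂ, ContDiff ℝ ∞ U → ContDiff ℝ ∞ W →
    (∀ x ∈ Ω, dv s₁ U x = 0) → (∀ x ∈ Ω, dv s W x = 0) → bl Ω (fun x => s x - s₁ x) U W = 0

/-- `∫_Ω (s - 1)(∇U, ∇v) + q U v = 0` for `ΔU = 0`, `div (s ∇ v) = q v` in `Ω`. -/
def StarQ (Ω : Set (V n)) (s : MF n) (q : V n → ℝ) : Prop :=
  ∀ U v : V n → ℂ, ContDiff ℝ ∞ U → ContDiff ℝ ∞ v →
    (∀ x ∈ Ω, dv (fun _ => 1) U x = 0) → (∀ x ∈ Ω, dv s v x = (q x : ℂ) * v x) →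
    bl Ω (fun x => s x - 1) U v + ∫ x in Ω, (q x : ℂ) * U x * v x = 0

/-- Local rigidity of `φ^{4/(n-2)} e` (`k` derivatives, neighbourhood `ε`, domains in `D` in which
`φ` is harmonic). -/
def LocP (n k : ℕ) (φ : V n → ℝ) (ε : ℝ) (D : Set (V n)) : Prop := ∀ (Ω : Set (V n)), IsOpen Ω →
  interior (closure Ω) = Ω → Ω ⊆ D → (∀ x ∈ Ω, dv (fun _ => 1) (cx φ) x = 0) → ∀ g : MF n,
  SmM g → (∀ x, (g x).PosDef) → (∀ x ∉ Ω, g x = gph φ x) →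
  (∀ i j, Cl k ε (fun x => g x i j - gph φ x i j)) → SD Ω (ph2 φ) (sg g) →
  ∃ w K, Dif Ω w K ∧ ∀ x, g x = cg φ (x + w x) • ((jm w x)ᵀ * jm w x)

/-! ## Rows -/

/-- (SP) equal data give the orthogonality identity. -/
def RowSP : Prop := ∀ {n : ℕ} (Ω : Set (V n)), IsOpen Ω → Bornology.IsBounded Ω →
  ∀ s₁ s : MF n, SmM s₁ → SmM s → (∀ x, (s₁ x).IsSymm) → (∀ x, (s x).IsSymm) → SD Ω s₁ s →
  StarP Ω s₁ s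

/-- (SQ) `s = φ² s'`, `q = div ((s' - 1) ∇φ) / φ`. -/
def RowSQ : Prop := ∀ {n : ℕ} (Ω : Set (V n)), IsOpen Ω → Bornology.IsBounded Ω →
  interior (closure Ω) = Ω → ∀ φ : V n → ℝ, SmP φ → (∀ x ∈ Ω, dv (fun _ => 1) (cx φ) x = 0) →
  ∀ s : MF n, SmM s → (∀ x, (s x).IsSymm) → (∀ x ∉ Ω, s x = 1) →
  ∀ q : V n → ℝ, (∀ x, (q x : ℂ) * φ x = dv (fun x => s x - 1) (cx φ) x) →
  StarP Ω (ph2 φ) (fun x => (φ x) ^ 2 • s x) →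
  ContDiff ℝ ∞ q ∧ (∀ x ∉ Ω, q x = 0) ∧ StarQ Ω s q

/-- (GQ) the solution `v = 1 + ω` of `div (s ∇ v) = q v`, `ω = 0` off `Ω`. -/
def RowGQ : Prop := ∀ (n M : ℕ), 1 ≤ n → ∃ C ε₀ : ℝ, 0 < C ∧ 0 < ε₀ ∧ ∀ (Ω : Set (V n)), IsOpen Ω →
  interior (closure Ω) = Ω → Ω ⊆ core n → ∀ s : MF n, SmM s → (∀ x, (s x).IsSymm) →
  (∀ x ∉ Ω, s x = 1) → ∀ q : V n → ℝ, ContDiff ℝ ∞ q → (∀ x ∉ Ω, q x = 0) → StarQ Ω s q →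
  ∀ δ, 0 ≤ δ → δ ≤ ε₀ → (∀ i j, nm M (cf 0 (ent s i j)) ≤ δ) → nm M (cf 0 (cx q)) ≤ δ →
  ∃ w : V n → ℝ, ContDiff ℝ ∞ w ∧ (∀ x ∉ Ω, w x = 0) ∧ Cl (M + 1) (C * δ) w ∧
    ∀ x, dv s (fun y => ((1 + w y : ℝ) : ℂ)) x = (q x : ℂ) * ((1 + w x : ℝ) : ℂ)

/-- (SV) the multiplicative gauge: `v² s` satisfies `Star`. -/
def RowSV : Prop := ∀ {n : ℕ} (Ω : Set (V n)), IsOpen Ω → Bornology.IsBounded Ω →
  interior (closure Ω) = Ω → ∀ s : MF n, SmM s → (∀ x, (s x).IsSymm) → (∀ x ∉ Ω, s x = 1) →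
  ∀ q : V n → ℝ, ContDiff ℝ ∞ q → (∀ x ∉ Ω, q x = 0) → StarQ Ω s q →
  ∀ v : V n → ℝ, SmP v → (∀ x ∉ Ω, v x = 1) → (∀ x, dv s (cx v) x = (q x : ℂ) * v x) →
  Star Ω (fun x => (v x) ^ 2 • s x)

/-- (FIN) conclusion: if `v² s` is the push-forward of `1`, then `φ² s` is that of `φ²`. -/
def RowFIN : Prop := ∀ {n : ℕ}, 3 ≤ n → ∀ (Ω : Set (V n)), IsOpen Ω → Bornology.IsBounded Ω →
  interior (closure Ω) = Ω → ∀ φ : V n → ℝ, SmP φ → (∀ x ∈ Ω, dv (fun _ => 1) (cx φ) x = 0) →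
  ∀ s : MF n, SmM s → (∀ x, (s x).IsSymm) → (∀ x ∉ Ω, s x = 1) →
  ∀ q : V n → ℝ, (∀ x, (q x : ℂ) * φ x = dv (fun x => s x - 1) (cx φ) x) →
  ∀ v : V n → ℝ, SmP v → (∀ x ∉ Ω, v x = 1) → (∀ x, dv s (cx v) x = (q x : ℂ) * v x) →
  ∀ w K, Dif Ω w K → (∀ x, psh (fun x => (v x) ^ 2 • s x) w K x = 1) →
  (∀ x, φ (x + w x) = φ x / v x) ∧
  ∀ g : MF n, (∀ x, (g x).PosDef) → (∀ x, sg g x = (φ x) ^ 2 • s x) →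
    ∀ x, g x = cg φ (x + w x) • ((jm w x)ᵀ * jm w x)

/-- (NQ) smallness: `g` close to `φ^{4/(n-2)} e` implies `s = φ⁻² √(det g) g⁻¹` close to `1` and
`q` small. -/
def RowNQ : Prop := ∀ (n k : ℕ), 3 ≤ n → ∀ φ : V n → ℝ, SmP φ → ∀ ε : ℝ, 0 < ε → ∃ δ > 0,
  ∀ (Ω : Set (V n)), Ω ⊆ core n → ∀ (g : MF n), SmM g → (∀ x, (g x).PosDef) →
  (∀ x ∉ Ω, g x = gph φ x) → (∀ i j, Cl (k + 1) δ (fun x => g x i j - gph φ x i j)) →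
  ∃ (s : MF n) (q : V n → ℝ), SmM s ∧ (∀ x, (s x).IsSymm) ∧ (∀ x ∉ Ω, s x = 1) ∧
    (∀ x, sg g x = (φ x) ^ 2 • s x) ∧
    (∀ x, (q x : ℂ) * φ x = dv (fun x => s x - 1) (cx φ) x) ∧
    (∀ i j, Cl k ε (fun x => s x i j - (1 : Matrix (Fin n) (Fin n) ℝ) i j)) ∧ Cl k ε (cx q)

/-- (SCALEP) from the core of the unit cube to any bounded set. -/
def RowSCALEP : Prop := ∀ (n k : ℕ), 3 ≤ n →
  (∀ φ : V n → ℝ, SmP φ → ∃ ε > 0, LocP n k φ ε (core n)) →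
  ∀ R : ℝ, 0 < R → ∀ φ : V n → ℝ, SmP φ → ∃ ε > 0, LocP n k φ ε {x | ∀ j, |x j| ≤ R}

end Vale.Agent.P088.LR
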