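import Vale.Agent.P088.H198.Defs

/-!
# P088, local rigidity of the flat metric: connections, scaling, CGO; rows
-/

open MeasureTheory Set
open scoped ContDiff Matrix

noncomputable section

namespace Vale.Agent.P088.LR

variable {n N : ℕ}

/-- Connection `1`-forms `A = ∑ A_i dx_i` on `ℝ^n × ℂ^N`. -/
abbrev Cn (n N : ℕ) := Fin n → V n → Matrix (Fin N) (Fin N) ℂ

/-- Smooth unitary connection. -/
def SmU (A : Cn n N) : Prop :=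
  (∀ i a b, ContDiff ℝ ∞ fun x => A i x a b) ∧ ∀ i x, (A i x)ᴴ = -A i x

/-- `(d_A u)_i = ∂_i u + A_i u`. -/
def cd (A : Cn n N) (i : Fin n) (u : V n → Fin N → ℂ) (x : V n) : Fin N → ℂ :=
  pd i u x + A i x *ᵥ u x

/-- `∫_Ω ⟨d_A u, d_A v⟩_g dV_g`; here `sg g = √(det g) g⁻¹`. -/
def en (Ω : Set (V n)) (g : MF n) (A : Cn n N) (u v : V n → Fin N → ℂ) : ℂ :=
  ∫ x in Ω, ∑ i, ∑ j, (sg g x i j : ℂ) * (cd A i u x ⬝ᵥ star (cd A j v x))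

/-- `u = u_f`: `u` is smooth, `u = f` on `∂Ω`, `d_A^* d_A u = 0` in `Ω` (weakly). -/
def Hr (Ω : Set (V n)) (g : MF n) (A : Cn n N) (f u : V n → Fin N → ℂ) : Prop :=
  ContDiff ℝ ∞ u ∧ (∀ x ∈ frontier Ω, u x = f x) ∧
    ∀ φ : V n → Fin N → ℂ, ContDiff ℝ ∞ φ → (∀ x ∈ frontier Ω, φ x = 0) → en Ω g A u φ = 0

/-- The data on `∂Ω` of `(g₁, A₁)` and `(g₂, A₂)` are equal. -/
def SDU (Ω : Set (V n)) (g₁ : MF n) (A₁ : Cn n N) (g₂ : MF n) (A₂ : Cn n N) : Prop :=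
  ∀ f h : V n → Fin N → ℂ, ContDiff ℝ ∞ f → ContDiff ℝ ∞ h → ∃ u v u' v',
    Hr Ω g₁ A₁ f u ∧ Hr Ω g₁ A₁ h v ∧ Hr Ω g₂ A₂ f u' ∧ Hr Ω g₂ A₂ h v' ∧
      en Ω g₁ A₁ u v = en Ω g₂ A₂ u' v'

/-- The entrywise derivative `∂_i U`. -/
def pdm (i : Fin n) (U : V n → Matrix (Fin N) (Fin N) ℂ) (x : V n) : Matrix (Fin N) (Fin N) ℂ :=
  Matrix.of fun a b => pd i (fun y => U y a b) x

/-- `U` is smooth, unitary on the closure of `Ω`, and `A' = U⁻¹ A U + U⁻¹ dU` in `Ω`. -/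
def Gau₀ (Ω : Set (V n)) (U : V n → Matrix (Fin N) (Fin N) ℂ) (A A' : Cn n N) : Prop :=
  (∀ a b, ContDiff ℝ ∞ fun x => U x a b) ∧ (∀ x ∈ closure Ω, (U x)ᴴ * U x = 1) ∧
    ∀ i, ∀ x ∈ Ω, A' i x = (U x)ᴴ * A i x * U x + (U x)ᴴ * pdm i U x

/-- Moreover `U = 1` on `∂Ω`. -/
def Gau (Ω : Set (V n)) (U : V n → Matrix (Fin N) (Fin N) ℂ) (A A' : Cn n N) : Prop :=
  Gau₀ Ω U A A' ∧ ∀ x ∈ frontier Ω, U x = 1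

/-- The pull-back `Φ^* A` under `Φ x = x + w x`. -/
def pb (w : V n → V n) (A : Cn n N) : Cn n N := fun i x =>
  ∑ j, ((jm w x j i : ℝ) : ℂ) • A j (x + w x)

/-- Local rigidity of the flat metric (`k` derivatives, neighbourhood `ε`, domains in `D`). -/
def Loc (n k : ℕ) (ε : ℝ) (D : Set (V n)) : Prop := ∀ (Ω : Set (V n)), IsOpen Ω →
  interior (closure Ω) = Ω → Ω ⊆ D → ∀ g : MF n, SmM g → (∀ x, (g x).PosDef) →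
  (∀ x ∉ Ω, g x = 1) → (∀ i j, Cl k ε (fun x => g x i j - (1 : Matrix (Fin n) (Fin n) ℝ) i j)) →
  SD Ω (fun _ => 1) (sg g) → ∃ w K, Dif Ω w K ∧ ∀ x, g x = (jm w x)ᵀ * jm w x

/-! ## Rows -/

/-- (SCALE) from the core of the unit cube to any bounded set. -/
def RowSCALE : Prop := ∀ (n k : ℕ) (ε : ℝ), 0 < ε → Loc n k ε (core n) → ∀ R : ℝ, 0 < R →
  ∃ ε' > 0, Loc n k ε' {x | ∀ j, |x j| ≤ R}

/-- (CONN) connections: `A₁` is globally trivial (no condition at the boundary), `A₂` is arbitrary,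
the data are equal. Then the scalar data are equal, and `A₂ = U⁻¹ (Φ^* A₁) U + U⁻¹ dU` with `U = 1`
on `∂Ω`, for any diffeomorphism `Φ = id + w` equal to the identity off `Ω`. -/
def RowCONN : Prop := ∀ {n N : ℕ}, 1 ≤ n → 1 ≤ N → ∀ (Ω : Set (V n)), IsOpen Ω →
  Bornology.IsBounded Ω → ∀ g₁ g₂ : MF n, SmM g₁ → SmM g₂ → (∀ x, (g₁ x).PosDef) →
  (∀ x, (g₂ x).PosDef) → ∀ A₁ A₂ : Cn n N, SmU A₁ → SmU A₂ → (∃ U, Gau₀ Ω U 0 A₁) →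
  SDU Ω g₁ A₁ g₂ A₂ →
  SD Ω (sg g₁) (sg g₂) ∧ ∀ w K, Dif Ω w K → ∃ U, Gau Ω U (pb w A₁) A₂

/-- The exponent `z'_j = - t q_j - i π ξ_j`. -/
def zz (t : ℝ) (ξ q : Ix n) (j : Fin n) : ℂ := ⟨-(t * q j), -(Real.pi * ξ j)⟩

/-- (CGO) the solution `W = e^{z'·x} (1 + r)`, `z' = - t q - i π ξ`, `z'·z' = 0`. -/
def RowCGO : Prop := ∀ (n : ℕ), ∃ C : ℝ, 0 < C ∧ ∀ (Ω : Set (V n)), IsOpen Ω → Ω ⊆ core n →
  ∀ s : MF n, SmM s → (∀ x, (s x).IsSymm) → (∀ x ∉ Ω, s x = 1) →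
  (∀ (ξ : V n) j, ∑ i, (ξ i : ℂ) * ft (ent s i j) ξ = 0) →
  ∀ a, a = ∑ i, ∑ j, nm 0 (cf 0 (ent s i j)) → ∀ ξ q : Ix n, ξ ≠ 0 → q ≠ 0 → ∑ j, q j * ξ j = 0 →
  wt q ≤ 4 * wt ξ ^ 2 → C * wt ξ ^ 8 * a ≤ 1 →
  ∀ X Q t : ℝ, X = √(∑ j, (ξ j : ℝ) ^ 2) → Q = √(∑ j, (q j : ℝ) ^ 2) → t = Real.pi * X / Q →
  ∃ (θ : V n) (y : Fin n → Ix n → ℂ) (W : V n → ℂ), (∀ i, RD (y i)) ∧ ContDiff ℝ ∞ W ∧
    (∀ i x, pd i W x = Complex.exp (∑ j, zz t ξ q j * x j) * (zz t ξ q i + Es θ (y i) x)) ∧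
    (∀ x ∈ cube n, dv s W x = 0) ∧ ∑ i, nm 0 (y i) ≤ C * wt ξ ^ 5 * a

end Vale.Agent.P088.LR
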