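import Vale.Agent.P088.H198.Defs3
import Vale.Agent.P088.H442.Defs3

/-!
# P088, the multiplicative gauge for a conformally flat base `φ² σ`, `div (σ ∇ φ) = 0`; rows

`sc σ = σ · 1`, `St2` are those of `H442/Defs3`.
-/

open MeasureTheory Set
open scoped ContDiff Matrix

noncomputable section

namespace Vale.Agent.P088.LR

open CF

variable {n : ℕ}

/-- `∫_Ω (s - s₁)(∇U, ∇v) + q U v = 0` for `div (s₁ ∇ U) = 0`, `div (s ∇ v) = q v` in `Ω`. -/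
def StQ (Ω : Set (V n)) (s₁ s : MF n) (q : V n → ℝ) : Prop :=
  ∀ U v : V n → ℂ, ContDiff ℝ ∞ U → ContDiff ℝ ∞ v →
    (∀ x ∈ Ω, dv s₁ U x = 0) → (∀ x ∈ Ω, dv s v x = (q x : ℂ) * v x) →
    bl Ω (fun x => s x - s₁ x) U v + ∫ x in Ω, (q x : ℂ) * U x * v x = 0

/-- The base density `φ² σ`. -/
def ps2 (φ σ : V n → ℝ) : V n → ℝ := fun x => (φ x) ^ 2 * σ x

/-- The conformal factor `(φ² σ)^{2/(n-2)}` of the base metric. -/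
def cc (φ σ : V n → ℝ) (x : V n) : ℝ := ((φ x) ^ 2 * σ x) ^ ((2 : ℝ) / ((n : ℝ) - 2))

/-- Rigidity of `σ · 1`, `σ` near `1`, in the tensor form. -/
def LocS (n k : ℕ) (ε : ℝ) : Prop := ∀ (Ω : Set (V n)), IsOpen Ω →
  interior (closure Ω) = Ω → Ω ⊆ bal n → ∀ (σ : V n → ℝ) (s : MF n), SmP σ →
  (∀ x ∉ bal n, σ x = 1) → SmM s → (∀ x, (s x).IsSymm) → (∀ x ∉ Ω, s x = sc σ x) →
  Cl k ε (fun x => σ x - 1) →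
  (∀ i j, Cl k ε (fun x => s x i j - (1 : Matrix (Fin n) (Fin n) ℝ) i j)) →
  St2 Ω (sc σ) s → ∃ w K, Dif Ω w K ∧ ∀ x, psh s w K x = sc σ x

/-- The same with `σ = 1` (on the core). -/
def LocS1 (n k : ℕ) (ε : ℝ) : Prop := ∀ (Ω : Set (V n)), IsOpen Ω →
  interior (closure Ω) = Ω → Ω ⊆ core n → ∀ (s : MF n), SmM s → (∀ x, (s x).IsSymm) →
  (∀ x ∉ Ω, s x = 1) →
  (∀ i j, Cl k ε (fun x => s x i j - (1 : Matrix (Fin n) (Fin n) ℝ) i j)) →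
  Star Ω s → ∃ w K, Dif Ω w K ∧ ∀ x, psh s w K x = 1

/-! ## Rows -/

/-- (SQ2) `s' = φ² s`, `q = div ((s - σ) ∇φ) / φ`. -/
def RowSQ2 : Prop := ∀ {n : ℕ} (Ω : Set (V n)), IsOpen Ω → Bornology.IsBounded Ω →
  interior (closure Ω) = Ω → ∀ φ σ : V n → ℝ, SmP φ → SmP σ →
  (∀ x ∈ Ω, dv (sc σ) (cx φ) x = 0) →
  ∀ s : MF n, SmM s → (∀ x, (s x).IsSymm) → (∀ x ∉ Ω, s x = sc σ x) →
  ∀ q : V n → ℝ, (∀ x, (q x : ℂ) * φ x = dv (fun x => s x - sc σ x) (cx φ) x) →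
  ContDiff ℝ ∞ q ∧ (∀ x ∉ Ω, q x = 0) ∧
  (St2 Ω (sc (ps2 φ σ)) (fun x => (φ x) ^ 2 • s x) → StQ Ω (sc σ) s q)

/-- (GQ2) the solution `v = 1 + w` of `div (s ∇ v) = q v`, `w = 0` off `Ω`. -/
def RowGQ2 : Prop := ∀ (n M : ℕ), 1 ≤ n → ∃ C ε₀ : ℝ, 0 < C ∧ 0 < ε₀ ∧ ∀ (Ω : Set (V n)),
  IsOpen Ω → interior (closure Ω) = Ω → Ω ⊆ core n → ∀ s₁ s : MF n, SmM s₁ → SmM s →
  (∀ x, (s₁ x).IsSymm) → (∀ x, (s x).IsSymm) → (∀ x ∉ core n, s₁ x = 1) →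
  (∀ x ∉ Ω, s x = s₁ x) → ∀ q : V n → ℝ, ContDiff ℝ ∞ q → (∀ x ∉ Ω, q x = 0) →
  StQ Ω s₁ s q → ∀ δ, 0 ≤ δ → δ ≤ ε₀ → (∀ i j, nm M (cf 0 (ent s₁ i j)) ≤ δ) →
  (∀ i j, nm M (cf 0 (ent s i j)) ≤ δ) → nm M (cf 0 (cx q)) ≤ δ →
  ∃ w : V n → ℝ, ContDiff ℝ ∞ w ∧ (∀ x ∉ Ω, w x = 0) ∧ Cl (M + 1) (C * δ) w ∧
    ∀ x, dv s (fun y => ((1 + w y : ℝ) : ℂ)) x = (q x : ℂ) * ((1 + w x : ℝ) : ℂ)

/-- (SV2) the multiplicative gauge: `v² s` satisfies `St2`. -/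
def RowSV2 : Prop := ∀ {n : ℕ} (Ω : Set (V n)), IsOpen Ω → Bornology.IsBounded Ω →
  interior (closure Ω) = Ω → ∀ s₁ s : MF n, SmM s₁ → SmM s → (∀ x, (s₁ x).IsSymm) →
  (∀ x, (s x).IsSymm) → (∀ x ∉ Ω, s x = s₁ x) →
  ∀ q : V n → ℝ, ContDiff ℝ ∞ q → (∀ x ∉ Ω, q x = 0) → StQ Ω s₁ s q →
  ∀ v : V n → ℝ, SmP v → (∀ x ∉ Ω, v x = 1) → (∀ x, dv s (cx v) x = (q x : ℂ) * v x) →
  St2 Ω s₁ (fun x => (v x) ^ 2 • s x)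

/-- (FIN2) conclusion: if `v² s` is pushed to `σ · 1`, then `φ² s` is pushed to `φ² σ · 1`. -/
def RowFIN2 : Prop := ∀ {n : ℕ}, 1 ≤ n → ∀ (Ω : Set (V n)), IsOpen Ω → Bornology.IsBounded Ω →
  interior (closure Ω) = Ω → ∀ φ σ : V n → ℝ, SmP φ → SmP σ →
  (∀ x ∈ Ω, dv (sc σ) (cx φ) x = 0) →
  ∀ s : MF n, SmM s → (∀ x, (s x).IsSymm) → (∀ x ∉ Ω, s x = sc σ x) →
  ∀ q : V n → ℝ, (∀ x, (q x : ℂ) * φ x = dv (fun x => s x - sc σ x) (cx φ) x) →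
  ∀ v : V n → ℝ, SmP v → (∀ x ∉ Ω, v x = 1) → (∀ x, dv s (cx v) x = (q x : ℂ) * v x) →
  ∀ w K, Dif Ω w K → (∀ x, psh (fun x => (v x) ^ 2 • s x) w K x = sc σ x) →
  ∀ x, psh (fun x => (φ x) ^ 2 • s x) w K x = sc (ps2 φ σ) x

/-- (NQ2) smallness of `s = φ⁻² √(det g) g⁻¹` and of `q`. -/
def RowNQ2 : Prop := ∀ (n k : ℕ), 3 ≤ n → ∀ φ : V n → ℝ, SmP φ → ∀ ε : ℝ, 0 < ε → ∃ δ > 0,
  ∀ (Ω : Set (V n)), Ω ⊆ core n → interior (closure Ω) = Ω → ∀ σ : V n → ℝ, SmP σ →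
  (∀ x ∉ core n, σ x = 1) → Cl (k + 1) δ (fun x => σ x - 1) → ∀ (g : MF n), SmM g →
  (∀ x, (g x).PosDef) → (∀ x ∉ Ω, g x = sc (cc φ σ) x) →
  (∀ i j, Cl (k + 1) δ (fun x => g x i j - sc (cc φ σ) x i j)) →
  ∃ (s : MF n) (q : V n → ℝ), SmM s ∧ (∀ x, (s x).IsSymm) ∧ (∀ x ∉ Ω, s x = sc σ x) ∧
    (∀ x, sg g x = (φ x) ^ 2 • s x) ∧
    (∀ x, (q x : ℂ) * φ x = dv (fun x => s x - sc σ x) (cx φ) x) ∧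
    (∀ i j, Cl k ε (fun x => s x i j - (1 : Matrix (Fin n) (Fin n) ℝ) i j)) ∧ Cl k ε (cx q)

/-- (SGC) the density of the base metric. -/
def RowSGC : Prop := ∀ {n : ℕ}, 3 ≤ n → ∀ φ σ : V n → ℝ, SmP φ → SmP σ →
  SmP (cc φ σ) ∧ ∀ x, sg (sc (cc φ σ)) x = sc (ps2 φ σ) x

/-- (ST2E) equal Dirichlet energies (`H639.SE`) or Dirichlet-to-Neumann forms give `St2`:
literal hypothesis `D Ω s₁ s₂` to be replaced by `SE` resp. `SD`. -/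
def RowST (D : ∀ {n : ℕ}, Set (V n) → MF n → MF n → Prop) : Prop := ∀ {n : ℕ} (Ω : Set (V n)),
  IsOpen Ω → Bornology.IsBounded Ω → ∀ s₁ s₂ : MF n, SmM s₁ → SmM s₂ →
  (∀ x, (s₁ x).PosDef) → (∀ x, (s₂ x).PosDef) → D Ω s₁ s₂ → St2 Ω s₁ s₂

/-- Local rigidity of the base metric `(φ² σ)^{2/(n-2)} e`, `σ` near `1`, `div (σ ∇ φ) = 0`. -/
def LocF (n : ℕ) (D : Set (V n) → MF n → MF n → Prop) (k : ℕ) (φ : V n → ℝ) (ε : ℝ) : Prop :=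
  ∀ (Ω : Set (V n)), IsOpen Ω → interior (closure Ω) = Ω → Ω ⊆ bal n → ∀ σ : V n → ℝ, SmP σ →
  (∀ x ∉ bal n, σ x = 1) → Cl k ε (fun x => σ x - 1) → (∀ x ∈ Ω, dv (sc σ) (cx φ) x = 0) →
  ∀ g : MF n, SmM g → (∀ x, (g x).PosDef) → (∀ x ∉ Ω, g x = sc (cc φ σ) x) →
  (∀ i j, Cl k ε (fun x => g x i j - sc (cc φ σ) x i j)) → D Ω (sg (sc (cc φ σ))) (sg g) →
  ∃ w K, Dif Ω w K ∧ ∀ x, g x = cc φ σ (x + w x) • ((jm w x)ᵀ * jm w x)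

/-- The same on the ball of radius `R`, without the condition `σ = 1` outside. -/
def LocFR (n : ℕ) (D : Set (V n) → MF n → MF n → Prop) (k : ℕ) (R : ℝ) (φ : V n → ℝ) (ε : ℝ) :
    Prop := ∀ (Ω : Set (V n)), IsOpen Ω → interior (closure Ω) = Ω →
  Ω ⊆ {x | ∑ j, x j ^ 2 ≤ R ^ 2} → ∀ σ : V n → ℝ, SmP σ →
  Cl k ε (fun x => σ x - 1) → (∀ x ∈ Ω, dv (sc σ) (cx φ) x = 0) →
  ∀ g : MF n, SmM g → (∀ x, (g x).PosDef) → (∀ x ∉ Ω, g x = sc (cc φ σ) x) →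
  (∀ i j, Cl k ε (fun x => g x i j - sc (cc φ σ) x i j)) → D Ω (sg (sc (cc φ σ))) (sg g) →
  ∃ w K, Dif Ω w K ∧ ∀ x, g x = cc φ σ (x + w x) • ((jm w x)ᵀ * jm w x)

/-- (SCALEF) scaling `x = 4R' (y - 1/2)`, `R' = 2R`, and cut-off of `σ - 1`; data `SD`. -/
def RowSCALEF : Prop := ∀ (n k : ℕ), 3 ≤ n →
  (∀ φ : V n → ℝ, SmP φ → ∃ ε > 0, LocF n (fun Ω s t => SD Ω s t) k φ ε) →
  ∀ R : ℝ, 0 < R → ∀ φ : V n → ℝ, SmP φ → ∃ ε > 0, LocFR n (fun Ω s t => SD Ω s t) k R φ ε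

end Vale.Agent.P088.LR
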