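import Vale.Agent.P088.H72.X.Top
import Vale.Agent.P088.H607.YBd
import Vale.Agent.P088.H639.ConXRow
import Vale.Agent.P088.H158.ConnC

/-!
# P088: local rigidity of the metrics `c e` on every smooth bounded domain, with connections
-/

open MeasureTheory Set
open scoped ContDiff Matrix

noncomputable section

namespace Vale.Agent.P088.LR

open B CF

/-- `Φ` is a diffeomorphism of `ℝ^n` (with inverse `Ψ`) which preserves `{ρ > 0}`, is the identity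
on `{ρ = 0}`, and `g = Φ^* (c e)` on `{ρ ≥ 0}`. -/
def ConfOn {n : ℕ} (ρ : V n → ℝ) (c : V n → ℝ) (g : MF n) (Φ Ψ : V n → V n) : Prop :=
  ContDiff ℝ ∞ Φ ∧ ContDiff ℝ ∞ Ψ ∧ (∀ x, Ψ (Φ x) = x) ∧ (∀ y, Φ (Ψ y) = y) ∧
    (∀ x, ρ x = 0 → Φ x = x) ∧ (∀ x, 0 < ρ (Φ x) ↔ 0 < ρ x) ∧ (∀ x, 0 < (Jm Φ x).det) ∧
    ∀ x, 0 ≤ ρ x → g x = c (Φ x) • ((Jm Φ x)ᵀ * Jm Φ x)

/-- Connections on top of a theorem for the energies. -/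
theorem conf_conn {n : ℕ} (hn : 3 ≤ n) {ρ : V n → ℝ} (hρ : SDom ρ) {c : V n → ℝ} {g : MF n}
    (hc : ContDiff ℝ ∞ c) (hc0 : ∀ x, 0 < c x) (hg : SmM g) (hp : ∀ x, (g x).PosDef)
    (hmain : H639.SE (Om ρ) (sg (sc c)) (sg g) → ∃ Φ Ψ, ConfOn ρ c g Φ Ψ) (N : ℕ) (hN : 1 ≤ N)
    (A₁ A₂ : Cn n N) (hA₁ : SmU A₁) (hA₂ : SmU A₂) (hT : ∃ U, Gau₀ (Om ρ) U 0 A₁)
    (hD : SDU (Om ρ) (sc c) A₁ g A₂) :
    ∃ Φ Ψ U, ConfOn ρ c g Φ Ψ ∧ Gau (Om ρ) U (H158.pbF Φ A₁) A₂ := by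
  have hb : Bornology.IsBounded (Om ρ) :=
    hρ.bd.subset fun x (hx : 0 < ρ x) => (show 0 ≤ ρ x from hx.le)
  have h1M : SmM (sc c : MF n) := fun i j => hc.mul contDiff_const
  have h1P : ∀ x, (sc c x : Matrix (Fin n) (Fin n) ℝ).PosDef := fun x =>
    Matrix.PosDef.one.smul (hc0 x)
  obtain ⟨hsd, hconn⟩ := H158.connOm (by omega) hN hρ.sm.continuous hb h1M hg h1P hp hA₁ hA₂ hT hD
  obtain ⟨Φ, Ψ, hF⟩ := hmain (H639.SE_of_SD hb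
    (fun i j => (H833.smM_sg hg hp i j).continuous) (H833.symm_sg hp) (H639.psd_sg hp)
    (fun i j => (H833.smM_sg h1M h1P i j).continuous) (H833.symm_sg h1P)
    (H639.psd_sg h1P) hsd)
  obtain ⟨U, hU⟩ := hconn Φ hF.1 hF.2.2.2.2.2.1 hF.2.2.2.2.1
  exact ⟨Φ, Ψ, U, hF, hU⟩

/-- Metrics and connections near the flat metric on a smooth bounded domain: base `c e`. -/
theorem smooth_domainsX (n : ℕ) (hn : 3 ≤ n) (ρ : V n → ℝ) (hρ : SDom ρ) :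
    ∃ (k : ℕ) (ε : ℝ), 0 < ε ∧ ∀ (c : V n → ℝ) (g : MF n), ContDiff ℝ ∞ c → (∀ x, 0 < c x) →
    SmM g → (∀ x, (g x).PosDef) → Cl k ε (fun x => c x - 1) →
    (∀ i j, Cl k ε (fun x => g x i j - dl i j)) →
    (H639.SE (Om ρ) (sg (sc c)) (sg g) → ∃ Φ Ψ, ConfOn ρ c g Φ Ψ) ∧
    ∀ N : ℕ, 1 ≤ N → ∀ A₁ A₂ : Cn n N, SmU A₁ → SmU A₂ → (∃ U, Gau₀ (Om ρ) U 0 A₁) →
      SDU (Om ρ) (sc c) A₁ g A₂ →
      ∃ Φ Ψ U, ConfOn ρ c g Φ Ψ ∧ Gau (Om ρ) U (H158.pbF Φ A₁) A₂ := by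
  obtain ⟨k, ε, hε, h⟩ := BX.finC_of_bd (Vale.Agent.P088.H607.xbd Vale.Agent.P088.H639.rowCON) n hn ρ hρ
  refine ⟨k, ε, hε, fun c g hc hc0 hg hp hcc hcl => ?_⟩
  have hmain : H639.SE (Om ρ) (sg (sc c)) (sg g) → ∃ Φ Ψ, ConfOn ρ c g Φ Ψ :=
    fun hS => h c g hc hc0 hg hp hcc hcl hS
  exact ⟨hmain, fun N hN A₁ A₂ hA₁ hA₂ hT hD =>
    conf_conn hn hρ hc hc0 hg hp hmain N hN A₁ A₂ hA₁ hA₂ hT hD⟩

end Vale.Agent.P088.LR
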