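import Vale.Agent.P088.H198.Defs2

/-!
# P088, local rigidity: the basic estimate from the CGO solutions
-/

open MeasureTheory Set Finset
open scoped ContDiff Matrix

noncomputable section

namespace Vale.Agent.P088.LR

variable {n : ℕ}

/-- `e^{z·x}`. -/
def ez (z : Fin n → ℂ) (x : V n) : ℂ := Complex.exp (∑ j, z j * x j)

theorem hasFDerivAt_lin (z : Fin n → ℂ) (x : V n) :
    HasFDerivAt (fun x : V n => ∑ j, z j * (x j : ℂ))
      (∑ j, z j • Complex.ofRealCLM.comp (ContinuousLinearMap.proj (R := ℝ) (φ := fun _ : Fin n => ℝ) j)) x := by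
  refine HasFDerivAt.fun_sum fun j _ => ?_
  have h := (Complex.ofRealCLM.comp (ContinuousLinearMap.proj (R := ℝ) (φ := fun _ : Fin n => ℝ) j)).hasFDerivAt (x := x)
  exact h.const_smul (z j)

theorem contDiff_ez (z : Fin n → ℂ) : ContDiff ℝ ∞ (ez z) := by
  unfold ez
  refine ContDiff.cexp ?_
  refine ContDiff.sum fun j _ => contDiff_const.mul ?_
  exact Complex.ofRealCLM.contDiff.comp (contDiff_apply ℝ ℝ j)

theorem pd_ez (z : Fin n → ℂ) (i : Fin n) (x : V n) : pd i (ez z) x = z i * ez z x := by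
  unfold pd
  have h := (hasFDerivAt_lin z x).cexp
  have : ez z = fun x : V n => Complex.exp (∑ j, z j * (x j : ℂ)) := rfl
  rw [this, h.fderiv]
  have h3 : ∑ k, z k * ((if k = i then (1 : ℝ) else 0 : ℝ) : ℂ) = z i := by
    rw [Finset.sum_eq_single i]
    · simp
    · intro k _ hk; simp [hk]
    · simp
  simp only [_root_.smul_apply, _root_.sum_apply,
    ContinuousLinearMap.comp_apply, ContinuousLinearMap.proj_apply, Complex.ofRealCLM_apply,
    Pi.single_apply, smul_eq_mul]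
  rw [h3, mul_comm]

theorem dv_ez (z : Fin n → ℂ) (hz : ∑ i, z i ^ 2 = 0) (x : V n) :
    dv (fun _ => 1) (ez z) x = 0 := by
  unfold dv
  have h1 : ∀ i : Fin n, (fun y : V n => ∑ j, (((1 : Matrix (Fin n) (Fin n) ℝ) i j : ℝ) : ℂ) *
      pd j (ez z) y) = fun y => z i * ez z y := by
    intro i
    funext y
    rw [Finset.sum_eq_single i]
    · simp [pd_ez]
    · intro j _ hj; simp [Matrix.one_apply_ne (Ne.symm hj)]
    · simp
  have h2 : ∀ i : Fin n, pd i (fun y => z i * ez z y) x = z i ^ 2 * ez z x := by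
    intro i
    have hd : DifferentiableAt ℝ (ez z) x := (contDiff_ez z).differentiable (by simp) x
    have : pd i (fun y => z i * ez z y) x = z i * pd i (ez z) x := by
      unfold pd
      rw [fderiv_const_mul hd]; rfl
    rw [this, pd_ez]; ring
  simp_rw [h1, h2]
  rw [← Finset.sum_mul, hz, zero_mul]

theorem norm_ex (ξ x : V n) : ‖ex ξ x‖ = 1 := by
  unfold ex
  rw [show 2 * (Real.pi : ℂ) * Complex.I * ((∑ j, ξ j * x j : ℝ) : ℂ) =
    ((2 * Real.pi * ∑ j, ξ j * x j : ℝ) : ℂ) * Complex.I by push_cast; ring]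
  exact Complex.norm_exp_ofReal_mul_I _

theorem continuous_ex (ξ : V n) : Continuous (ex ξ) := by
  unfold ex
  fun_prop

theorem norm_Es_le (θ : V n) (c : Ix n → ℂ) (hc : RD c) (x : V n) : ‖Es θ c x‖ ≤ nm 0 c := by
  have h0 := hc 0
  simp only [pow_zero, one_mul] at h0
  unfold Es nm
  simp only [pow_zero, one_mul]
  refine (norm_tsum_le_tsum_norm ?_).trans (le_of_eq ?_)
  · simpa [norm_ex] using h0
  · simp [norm_ex]

/-- The exponent `z_j = t q_j - i π ξ_j`. -/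
def zp (t : ℝ) (ξ q : Ix n) (j : Fin n) : ℂ := ⟨t * q j, -(Real.pi * ξ j)⟩

theorem zp_eq (t : ℝ) (ξ q : Ix n) (j : Fin n) :
    zp t ξ q j = t * q j - Complex.I * (Real.pi * ξ j) := by
  apply Complex.ext <;> simp [zp]

theorem zz_eq (t : ℝ) (ξ q : Ix n) (j : Fin n) :
    zz t ξ q j = -(t * q j) - Complex.I * (Real.pi * ξ j) := by
  apply Complex.ext <;> simp [zz]

theorem ez_mul (t : ℝ) (ξ q : Ix n) (x : V n) :
    ez (zp t ξ q) x * Complex.exp (∑ j, zz t ξ q j * x j) = ex (-fr 0 ξ) x := by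
  unfold ez ex
  rw [← Complex.exp_add, ← Finset.sum_add_distrib]
  congr 1
  push_cast
  rw [Finset.mul_sum]
  refine Finset.sum_congr rfl fun j _ => ?_
  rw [zp_eq, zz_eq]
  simp only [fr, Pi.neg_apply, Pi.zero_apply, add_zero, Complex.ofReal_neg, Complex.ofReal_intCast]
  ring

theorem zp_sq (t X Q : ℝ) (ξ q : Ix n) (hqξ : ∑ j, q j * ξ j = 0)
    (hX : ∑ j, (ξ j : ℝ) ^ 2 = X ^ 2) (hQ : ∑ j, (q j : ℝ) ^ 2 = Q ^ 2)
    (h : t * Q = Real.pi * X) : ∑ j, zp t ξ q j ^ 2 = 0 := by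
  have h1 : ∑ j, zp t ξ q j ^ 2 = ((t ^ 2 * ∑ j, (q j : ℝ) ^ 2 - Real.pi ^ 2 * ∑ j, (ξ j : ℝ) ^ 2 : ℝ) : ℂ)
      - 2 * Complex.I * Real.pi * t * ((∑ j, q j * ξ j : ℤ) : ℂ) := by
    push_cast
    rw [Finset.mul_sum, Finset.mul_sum, Finset.mul_sum, ← Finset.sum_sub_distrib,
      ← Finset.sum_sub_distrib]
    refine Finset.sum_congr rfl fun j _ => ?_
    rw [zp_eq]
    ring_nf
    rw [Complex.I_sq]
    ring
  rw [h1, hqξ, hX, hQ]
  have : t ^ 2 * Q ^ 2 - Real.pi ^ 2 * X ^ 2 = 0 := by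
    have : t ^ 2 * Q ^ 2 = (t * Q) ^ 2 := by ring
    rw [this, h]; ring
  rw [this]; simp

theorem quad (t : ℝ) (ξ q : Ix n) (F : Fin n → Fin n → ℂ)
    (h1 : ∀ j, ∑ i, (ξ i : ℂ) * F i j = 0) (h2 : ∀ i, ∑ j, (ξ j : ℂ) * F i j = 0) :
    ∑ i, ∑ j, zp t ξ q i * zz t ξ q j * F i j = -(t ^ 2 * ∑ i, ∑ j, (q i : ℂ) * q j * F i j) := by
  have hA : ∑ i, ∑ j, (q i : ℂ) * ((ξ j : ℂ) * F i j) = 0 := by
    refine Finset.sum_eq_zero fun i _ => ?_
    rw [← Finset.mul_sum, h2, mul_zero]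
  have hB : ∑ i, ∑ j, (q j : ℂ) * ((ξ i : ℂ) * F i j) = 0 := by
    rw [Finset.sum_comm]
    refine Finset.sum_eq_zero fun j _ => ?_
    rw [← Finset.mul_sum, h1, mul_zero]
  have hD : ∑ i, ∑ j, (ξ i : ℂ) * ((ξ j : ℂ) * F i j) = 0 := by
    refine Finset.sum_eq_zero fun i _ => ?_
    rw [← Finset.mul_sum, h2, mul_zero]
  have : ∑ i, ∑ j, zp t ξ q i * zz t ξ q j * F i j =
      -(t ^ 2 * ∑ i, ∑ j, (q i : ℂ) * q j * F i j)
      - (Complex.I * Real.pi * t) * ∑ i, ∑ j, (q i : ℂ) * ((ξ j : ℂ) * F i j)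
      + (Complex.I * Real.pi * t) * ∑ i, ∑ j, (q j : ℂ) * ((ξ i : ℂ) * F i j)
      - Real.pi ^ 2 * ∑ i, ∑ j, (ξ i : ℂ) * ((ξ j : ℂ) * F i j) := by
    simp only [Finset.mul_sum, ← Finset.sum_neg_distrib, ← Finset.sum_sub_distrib,
      ← Finset.sum_add_distrib]
    refine Finset.sum_congr rfl fun i _ => Finset.sum_congr rfl fun j _ => ?_
    rw [zp_eq, zz_eq]
    have hI : Complex.I ^ 2 = -1 := Complex.I_sq
    linear_combination (Real.pi ^ 2 * ξ i * ξ j * F i j : ℂ) * hI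
  rw [this, hA, hB, hD]
  ring

theorem wt_one_le (k : Ix n) : 1 ≤ wt k := by
  unfold wt
  have := Finset.sum_nonneg (fun j (_ : j ∈ (Finset.univ : Finset (Fin n))) => abs_nonneg (k j : ℝ))
  linarith

theorem sqrt_le_wt (k : Ix n) : √(∑ j, (k j : ℝ) ^ 2) ≤ wt k := by
  have h0 : 0 ≤ ∑ j, |(k j : ℝ)| := Finset.sum_nonneg fun j _ => abs_nonneg _
  have h : ∑ j, (k j : ℝ) ^ 2 ≤ (∑ j, |(k j : ℝ)|) ^ 2 := by
    rw [pow_two (∑ j, |(k j : ℝ)|), Finset.sum_mul]
    refine Finset.sum_le_sum fun j _ => ?_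
    rw [← sq_abs, pow_two]
    gcongr
    exact Finset.single_le_sum (f := fun j => |(k j : ℝ)|) (fun i _ => abs_nonneg _) (Finset.mem_univ j)
  calc √(∑ j, (k j : ℝ) ^ 2) ≤ ∑ j, |(k j : ℝ)| := Real.sqrt_le_iff.2 ⟨h0, h⟩
    _ ≤ wt k := by unfold wt; linarith

theorem abs_le_sqrt_sum (k : Ix n) (j : Fin n) : |(k j : ℝ)| ≤ √(∑ j, (k j : ℝ) ^ 2) := by
  refine Real.abs_le_sqrt ?_
  exact Finset.single_le_sum (f := fun j => (k j : ℝ) ^ 2) (fun i _ => sq_nonneg _) (Finset.mem_univ j)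

theorem one_le_sqrt (k : Ix n) (hk : k ≠ 0) : 1 ≤ √(∑ j, (k j : ℝ) ^ 2) := by
  obtain ⟨j, hj⟩ := Function.ne_iff.1 hk
  have h1 : (1 : ℝ) ≤ |(k j : ℝ)| := by
    have : (1 : ℤ) ≤ |k j| := Int.one_le_abs hj
    exact_mod_cast this
  exact h1.trans (abs_le_sqrt_sum k j)

theorem nm_nonneg (m : ℕ) (c : Ix n → ℂ) : 0 ≤ nm m c := by
  unfold nm
  refine tsum_nonneg fun k => ?_
  have := wt_one_le k
  positivity

theorem core_sub_cube : core n ⊆ cube n := by
  intro x hx j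
  have := hx j
  constructor <;> linarith [this.1, this.2]

theorem ent_off {s : MF n} {Ω : Set (V n)} (h1 : ∀ x ∉ Ω, s x = 1) (i j : Fin n) (x : V n)
    (hx : x ∉ Ω) : ent s i j x = 0 := by
  unfold ent; rw [h1 x hx]; simp

theorem contDiff_ent {s : MF n} (hs : SmM s) (i j : Fin n) : ContDiff ℝ ∞ (ent s i j) := by
  unfold ent
  exact Complex.ofRealCLM.contDiff.comp ((hs i j).sub contDiff_const)

theorem isCompact_core : IsCompact (core n) := by
  have : core n = Set.Icc (fun _ => 1 / 4) (fun _ => 3 / 4) := by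
    ext x
    constructor
    · intro h; exact ⟨fun j => (h j).1, fun j => (h j).2⟩
    · intro h j; exact ⟨h.1 j, h.2 j⟩
  rw [this]; exact isCompact_Icc

theorem tsupport_ent {s : MF n} {Ω : Set (V n)} (hc : Ω ⊆ core n) (h1 : ∀ x ∉ Ω, s x = 1)
    (i j : Fin n) : tsupport (ent s i j) ⊆ cube n := by
  refine (closure_minimal ?_ isCompact_core.isClosed).trans core_sub_cube
  intro x hx
  by_contra h
  exact hx (ent_off h1 i j x fun h' => h (hc h'))

theorem norm_ent_le (hA3 : RowA3) {s : MF n} (hs : SmM s) {Ω : Set (V n)} (hc : Ω ⊆ core n)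
    (h1 : ∀ x ∉ Ω, s x = 1) (i j : Fin n) (x : V n) (hx : x ∈ Ω) :
    ‖ent s i j x‖ ≤ nm 0 (cf 0 (ent s i j)) := by
  obtain ⟨_, _, H3⟩ := hA3 n 0
  obtain ⟨hr, he, _⟩ := H3 (ent s i j) (contDiff_ent hs i j) (tsupport_ent hc h1 i j) 0 (by simp)
  rw [he x (core_sub_cube (hc hx))]
  exact norm_Es_le _ _ hr x

theorem volume_core : volume.real (core n) ≤ 1 := by
  have : core n = Set.Icc (fun _ => 1 / 4) (fun _ => 3 / 4) := by
    ext x
    constructor
    · intro h; exact ⟨fun j => (h j).1, fun j => (h j).2⟩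
    · intro h j; exact ⟨h.1 j, h.2 j⟩
  rw [this, Measure.real, Real.volume_Icc_pi_toReal]
  · refine Finset.prod_le_one (fun i _ => by norm_num) (fun i _ => by norm_num)
  · intro j; norm_num

theorem est_of_cgo (hA1 : RowA1) (hA3 : RowA3) (hCGO : RowCGO) : RowEST := by
  intro n
  obtain ⟨C, hC, H⟩ := hCGO n
  have hpi := Real.pi_pos
  refine ⟨C + 32 * Real.pi * C, by positivity, ?_⟩
  intro Ω hΩ hcore s hs hsym h1 hdiv hstar a ha ξ q hξ hqξ hwt hsm
  have ha0 : 0 ≤ a := by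
    rw [ha]; exact Finset.sum_nonneg fun i _ => Finset.sum_nonneg fun j _ => nm_nonneg _ _
  have hw := wt_one_le ξ
  have hw0 : 0 ≤ wt ξ := by linarith
  rcases eq_or_ne q 0 with rfl | hq
  · simp only [Pi.zero_apply, Int.cast_zero, zero_mul, Finset.sum_const_zero, norm_zero]
    positivity
  have hsm' : C * wt ξ ^ 8 * a ≤ 1 := by
    refine le_trans ?_ hsm
    have : C ≤ C + 32 * Real.pi * C := by
      have : 0 ≤ 32 * Real.pi * C := by positivity
      linarith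
    gcongr
  obtain ⟨X, hX⟩ : ∃ X, X = √(∑ j, (ξ j : ℝ) ^ 2) := ⟨_, rfl⟩
  obtain ⟨Q, hQ⟩ : ∃ Q, Q = √(∑ j, (q j : ℝ) ^ 2) := ⟨_, rfl⟩
  obtain ⟨t, ht⟩ : ∃ t, t = Real.pi * X / Q := ⟨_, rfl⟩
  have hX1 : 1 ≤ X := hX ▸ one_le_sqrt ξ hξ
  have hQ1 : 1 ≤ Q := hQ ▸ one_le_sqrt q hq
  have hQ0 : 0 < Q := by linarith
  have hXw : X ≤ wt ξ := hX ▸ sqrt_le_wt ξ
  have hQw : Q ≤ wt q := hQ ▸ sqrt_le_wt q
  have htQ : t * Q = Real.pi * X := by rw [ht]; field_simp
  have ht0 : 0 < t := by rw [ht]; positivity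
  have hXs : ∑ j, (ξ j : ℝ) ^ 2 = X ^ 2 := by
    rw [hX, Real.sq_sqrt (Finset.sum_nonneg fun j _ => sq_nonneg _)]
  have hQs : ∑ j, (q j : ℝ) ^ 2 = Q ^ 2 := by
    rw [hQ, Real.sq_sqrt (Finset.sum_nonneg fun j _ => sq_nonneg _)]
  obtain ⟨θ, y, W, hy, hW, hpd, hdv, hS⟩ :=
    H Ω hΩ hcore s hs hsym h1 hdiv a ha ξ q hξ hq hqξ hwt hsm' X Q t hX hQ ht
  have hst := hstar (ez (zp t ξ q)) W (contDiff_ez _) hW
    (fun x _ => dv_ez _ (zp_sq t X Q ξ q hqξ hXs hQs htQ) x)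
    (fun x hx => hdv x (core_sub_cube (hcore hx)))
  set S := ∑ i, nm 0 (y i) with hSdef
  set F : Fin n → Fin n → ℂ := fun i j => ft (ent s i j) (fr 0 ξ) with hF
  have hG : ∀ i j, Continuous fun x => ent s i j x * ex (-fr 0 ξ) x := fun i j =>
    (contDiff_ent hs i j).continuous.mul (continuous_ex _)
  have hE : ∀ j, Continuous (Es θ (y j)) := fun j => (hA1 θ (y j) (hy j)).1.continuous
  have hint : ∀ f : V n → ℂ, Continuous f → IntegrableOn f Ω := fun f hf =>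
    (hf.continuousOn.integrableOn_compact isCompact_core).mono_set hcore
  have hpt : ∀ x, (∑ i, ∑ j, (((fun x => s x - 1) x i j : ℝ) : ℂ) * pd i (ez (zp t ξ q)) x *
      pd j W x) = (∑ i, ∑ j, zp t ξ q i * zz t ξ q j * (ent s i j x * ex (-fr 0 ξ) x)) +
      ∑ i, ∑ j, zp t ξ q i * (ent s i j x * ex (-fr 0 ξ) x * Es θ (y j) x) := by
    intro x
    rw [← Finset.sum_add_distrib]
    refine Finset.sum_congr rfl fun i _ => ?_
    rw [← Finset.sum_add_distrib]
    refine Finset.sum_congr rfl fun j _ => ?_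
    rw [pd_ez, hpd, ← ez_mul t ξ q x]
    simp only [Matrix.sub_apply, ent]
    ring
  have hFint : ∀ i j, ∫ x in Ω, ent s i j x * ex (-fr 0 ξ) x = F i j := by
    intro i j
    rw [setIntegral_eq_integral_of_forall_compl_eq_zero]
    · rfl
    · intro x hx; rw [ent_off h1 i j x hx, zero_mul]
  have hF1 : ∀ j, ∑ i, (ξ i : ℂ) * F i j = 0 := by
    intro j
    have := hdiv (fr 0 ξ) j
    simpa [fr] using this
  have hentsym : ∀ i j, ent s i j = ent s j i := by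
    intro i j; funext x; unfold ent
    rw [(hsym x).apply j i, ← Matrix.transpose_apply (1 : Matrix (Fin n) (Fin n) ℝ) i j,
      Matrix.transpose_one]
  have hF2 : ∀ i, ∑ j, (ξ j : ℂ) * F i j = 0 := by
    intro i
    rw [← hF1 i]
    refine Finset.sum_congr rfl fun j _ => ?_
    simp only [hF, hentsym i j]
  set R : V n → ℂ := fun x => ∑ i, ∑ j, zp t ξ q i * (ent s i j x * ex (-fr 0 ξ) x * Es θ (y j) x)
    with hR
  have hRc : Continuous R := by
    refine continuous_finsetSum _ fun i _ => continuous_finsetSum _ fun j _ => ?_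
    exact continuous_const.mul ((hG i j).mul (hE j))
  have hGc : ∀ i j, Continuous fun x =>
      zp t ξ q i * zz t ξ q j * (ent s i j x * ex (-fr 0 ξ) x) := fun i j =>
    continuous_const.mul (hG i j)
  have hGi : ∀ i, Continuous fun x =>
      ∑ j, zp t ξ q i * zz t ξ q j * (ent s i j x * ex (-fr 0 ξ) x) := fun i =>
    continuous_finsetSum _ fun j _ => hGc i j
  have hGs : Continuous fun x =>
      ∑ i, ∑ j, zp t ξ q i * zz t ξ q j * (ent s i j x * ex (-fr 0 ξ) x) :=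
    continuous_finsetSum _ fun i _ => hGi i
  have hsplit : (∫ x in Ω, ∑ i, ∑ j, zp t ξ q i * zz t ξ q j * (ent s i j x * ex (-fr 0 ξ) x)) =
      -(t ^ 2 * ∑ i, ∑ j, (q i : ℂ) * q j * F i j) := by
    rw [integral_finsetSum _ fun i _ => hint _ (hGi i), ← quad t ξ q F hF1 hF2]
    refine Finset.sum_congr rfl fun i _ => ?_
    rw [integral_finsetSum _ fun j _ => hint _ (hGc i j)]
    refine Finset.sum_congr rfl fun j _ => ?_
    rw [integral_const_mul, hFint]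
  have hmain : (t : ℂ) ^ 2 * ∑ i, ∑ j, (q i : ℂ) * q j * F i j = ∫ x in Ω, R x := by
    unfold bl at hst
    simp_rw [hpt] at hst
    rw [integral_add (hint _ hGs) (hint _ hRc), hsplit] at hst
    linear_combination -hst
  have hzp : ∀ i, ‖zp t ξ q i‖ ≤ 2 * Real.pi * wt ξ := by
    intro i
    have h2 : ‖zp t ξ q i‖ ≤ t * |(q i : ℝ)| + Real.pi * |(ξ i : ℝ)| := by
      rw [zp_eq]
      refine (norm_sub_le _ _).trans (le_of_eq ?_)
      rw [norm_mul, norm_mul, norm_mul, Complex.norm_I, Complex.norm_real, Complex.norm_intCast,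
        Complex.norm_real, Complex.norm_intCast, Real.norm_of_nonneg ht0.le,
        Real.norm_of_nonneg hpi.le, one_mul]
    have h3 : |(q i : ℝ)| ≤ Q := hQ ▸ abs_le_sqrt_sum q i
    have h4 : |(ξ i : ℝ)| ≤ X := hX ▸ abs_le_sqrt_sum ξ i
    calc ‖zp t ξ q i‖ ≤ t * |(q i : ℝ)| + Real.pi * |(ξ i : ℝ)| := h2
      _ ≤ t * Q + Real.pi * X := by gcongr
      _ = 2 * Real.pi * X := by rw [htQ]; ring
      _ ≤ 2 * Real.pi * wt ξ := by gcongr
  have hS0 : 0 ≤ S := Finset.sum_nonneg fun i _ => nm_nonneg _ _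
  have hRb : ∀ x ∈ Ω, ‖R x‖ ≤ a * (2 * Real.pi * wt ξ) * S := by
    intro x hx
    calc ‖R x‖ ≤ ∑ i, ∑ j, nm 0 (cf 0 (ent s i j)) * ((2 * Real.pi * wt ξ) * S) := by
          refine (norm_sum_le _ _).trans (Finset.sum_le_sum fun i _ => ?_)
          refine (norm_sum_le _ _).trans (Finset.sum_le_sum fun j _ => ?_)
          rw [norm_mul, norm_mul, norm_mul, norm_ex, mul_one]
          have e1 := norm_ent_le hA3 hs hcore h1 i j x hx
          have e2 : ‖Es θ (y j) x‖ ≤ S := (norm_Es_le θ (y j) (hy j) x).trans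
            (Finset.single_le_sum (f := fun j => nm 0 (y j)) (fun i _ => nm_nonneg _ _)
              (Finset.mem_univ j))
          have e3 := hzp i
          have e4 := nm_nonneg 0 (cf 0 (ent s i j))
          calc ‖zp t ξ q i‖ * (‖ent s i j x‖ * ‖Es θ (y j) x‖)
              ≤ (2 * Real.pi * wt ξ) * (nm 0 (cf 0 (ent s i j)) * S) := by gcongr
            _ = _ := by ring
      _ = a * (2 * Real.pi * wt ξ) * S := by
          rw [ha]; simp only [← Finset.sum_mul]; ring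
  have hint2 : ‖∫ x in Ω, R x‖ ≤ a * (2 * Real.pi * wt ξ) * S := by
    have hv : volume.real Ω ≤ 1 :=
      (measureReal_mono hcore isCompact_core.measure_lt_top.ne).trans volume_core
    refine (norm_setIntegral_le_of_norm_le_const
      ((measure_mono hcore).trans_lt isCompact_core.measure_lt_top) hRb).trans ?_
    exact mul_le_of_le_one_right (by positivity) hv
  rw [← hmain, norm_mul, norm_pow, Complex.norm_real, Real.norm_of_nonneg ht0.le] at hint2
  set Z := ‖∑ i, ∑ j, (q i : ℂ) * q j * F i j‖ with hZ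
  have hZ0 : 0 ≤ Z := norm_nonneg _
  have hpx : 1 ≤ (t * Q) ^ 2 := by
    rw [htQ]
    have : 1 ≤ Real.pi * X := by nlinarith [Real.pi_gt_three]
    nlinarith
  have hB : a * (2 * Real.pi * wt ξ) * S ≤ a * (2 * Real.pi * wt ξ) * (C * wt ξ ^ 5 * a) := by
    gcongr
  have hQ2 : Q ^ 2 ≤ 16 * wt ξ ^ 4 := by
    calc Q ^ 2 ≤ (4 * wt ξ ^ 2) ^ 2 := by gcongr; exact hQw.trans hwt
      _ = _ := by ring
  calc Z ≤ (t * Q) ^ 2 * Z := le_mul_of_one_le_left hZ0 hpx
    _ = Q ^ 2 * (t ^ 2 * Z) := by ring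
    _ ≤ (16 * wt ξ ^ 4) * (a * (2 * Real.pi * wt ξ) * (C * wt ξ ^ 5 * a)) := by
        exact mul_le_mul hQ2 (hint2.trans hB) (by positivity) (by positivity)
    _ = (32 * Real.pi * C) * wt ξ ^ 10 * a ^ 2 := by ring
    _ ≤ (C + 32 * Real.pi * C) * wt ξ ^ 16 * a ^ 2 := by
        gcongr
        · linarith
        · norm_num

end Vale.Agent.P088.LR
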