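import Vale.Agent.P088.H198.Defs4
import Vale.Agent.P088.H442.Top
import Vale.Agent.P088.H158.ConnA

/-!
# P088: rigidity over the base `φ² σ`: assembly
-/

open MeasureTheory Set
open scoped ContDiff Matrix

noncomputable section

namespace Vale.Agent.P088.LR

open CF

variable {n : ℕ}

theorem bal_sub_core : bal n ⊆ core n := by
  intro x hx j
  have h1 : (x j - 1 / 2) ^ 2 ≤ 1 / 16 :=
    (Finset.single_le_sum (f := fun j => (x j - 1 / 2) ^ 2) (fun i _ => sq_nonneg _)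
      (Finset.mem_univ j)).trans hx
  have h2 : |x j - 1 / 2| ≤ 1 / 4 := by
    refine abs_le_of_sq_le_sq ?_ (by norm_num)
    nlinarith
  rw [abs_le] at h2
  constructor <;> linarith [h2.1, h2.2]

theorem smM_sc {σ : V n → ℝ} (h : ContDiff ℝ ∞ σ) : SmM (sc σ) := by
  intro i j
  exact h.mul contDiff_const

theorem symm_sc (σ : V n → ℝ) (x : V n) : (sc σ x).IsSymm := by
  unfold sc
  exact Matrix.isSymm_one.smul _

/-- `(1 + w)² a - c` is small if `a - c` and `w` are small. -/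
theorem v2_aux (k : ℕ) (ε : ℝ) (hε : 0 < ε) (c : ℝ) : ∃ δ > 0, ∀ a w : V n → ℝ,
    ContDiff ℝ ∞ a → ContDiff ℝ ∞ w → Cl k δ (fun x => a x - c) → Cl k δ w →
    Cl k ε (fun x => (1 + w x) ^ 2 * a x - c) := by
  let p0 : Fin 2 → ℝ := fun b => if b = 0 then c else 0
  let Ψ : (Fin 2 → ℝ) → ℝ := fun p => (1 + p 1) ^ 2 * p 0 - c
  have hΨ : ContDiff ℝ ∞ Ψ :=
    (((contDiff_const.add (contDiff_apply ℝ ℝ (1 : Fin 2))).pow 2).mul
      (contDiff_apply ℝ ℝ (0 : Fin 2))).sub contDiff_const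
  have hz : Ψ p0 = 0 := by simp [Ψ, p0]
  obtain ⟨δ, hδ, h⟩ := H72.small_comp (n := n) univ isOpen_univ p0 (mem_univ _) Ψ
    hΨ.contDiffOn hz k ε hε
  refine ⟨δ, hδ, fun a w ha hw hac hwc => ?_⟩
  refine (h (fun x b => if b = 0 then a x else w x) ?_ ?_).2
  · refine contDiff_pi.2 fun b => ?_
    by_cases hb : b = 0
    · simpa [hb] using ha
    · simpa [hb] using hw
  · intro b
    by_cases hb : b = 0
    · simpa [hb, p0] using hac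
    · simpa [hb, p0] using hwc

/-- `(1 + w)² s - 1` is small if `s - 1` and `w` are small. -/
theorem v2_small (n k : ℕ) (ε : ℝ) (hε : 0 < ε) : ∃ δ > 0, ∀ (s : MF n) (w : V n → ℝ), SmM s →
    ContDiff ℝ ∞ w →
    (∀ i j, Cl k δ (fun x => s x i j - (1 : Matrix (Fin n) (Fin n) ℝ) i j)) → Cl k δ w →
    ∀ i j, Cl k ε (fun x => (1 + w x) ^ 2 * s x i j - (1 : Matrix (Fin n) (Fin n) ℝ) i j) := by
  have H := fun a : Fin n × Fin n =>
    v2_aux (n := n) k ε hε ((1 : Matrix (Fin n) (Fin n) ℝ) a.1 a.2)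
  choose d hd h using H
  obtain ⟨δ, hδ, hle⟩ := H72.exists_pos_le d hd
  refine ⟨δ, hδ, fun s w hs hw hsc hwc i j => ?_⟩
  exact h (i, j) _ w (hs i j) hw (H72.cl_mono (hsc i j) (hle (i, j)))
    (H72.cl_mono hwc (hle (i, j)))

/-- The solution `v` with bounds. -/
theorem gauge_v (hA3 : RowA3) (hGQ : RowGQ2) (hn : 1 ≤ n) (k : ℕ) (ε : ℝ) (hε : 0 < ε) :
    ∃ B > 0, ∀ (Ω : Set (V n)), IsOpen Ω → interior (closure Ω) = Ω → Ω ⊆ core n →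
    ∀ σ : V n → ℝ, SmP σ → (∀ x ∉ core n, σ x = 1) → Cl (k + n + 1) B (fun x => σ x - 1) →
    ∀ s : MF n, SmM s → (∀ x, (s x).IsSymm) → (∀ x ∉ Ω, s x = sc σ x) →
    (∀ i j, Cl (k + n + 1) B (fun x => s x i j - (1 : Matrix (Fin n) (Fin n) ℝ) i j)) →
    ∀ q : V n → ℝ, ContDiff ℝ ∞ q → (∀ x ∉ Ω, q x = 0) → Cl (k + n + 1) B (cx q) →
    StQ Ω (sc σ) s q →
    ∃ v : V n → ℝ, SmP v ∧ (∀ x ∉ Ω, v x = 1) ∧ (∀ x, dv s (cx v) x = (q x : ℂ) * v x) ∧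
      ∀ i j, Cl k ε (fun x => v x ^ 2 * s x i j - (1 : Matrix (Fin n) (Fin n) ℝ) i j) := by
  obtain ⟨CA, hCA, hA⟩ := hA3 n k
  obtain ⟨CG, εG, hCG, hεG, hgq⟩ := hGQ n k hn
  obtain ⟨δ₂, hδ₂, hv2⟩ := v2_small n k ε hε
  obtain ⟨δ, hδe⟩ : ∃ δ, δ = min εG (min (δ₂ / CG) (1 / 2 / CG)) := ⟨_, rfl⟩
  have hδ : 0 < δ := hδe ▸ lt_min hεG (lt_min (by positivity) (by positivity))
  have hδ1 : δ ≤ εG := hδe ▸ min_le_left _ _
  have hδ2 : CG * δ ≤ δ₂ := by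
    have h1 : δ ≤ δ₂ / CG := hδe ▸ (min_le_right _ _).trans (min_le_left _ _)
    rw [le_div_iff₀ hCG] at h1
    linarith
  have hδ3 : CG * δ ≤ 1 / 2 := by
    have h1 : δ ≤ 1 / 2 / CG := hδe ▸ (min_le_right _ _).trans (min_le_right _ _)
    rw [le_div_iff₀ hCG] at h1
    linarith
  obtain ⟨B, hBe⟩ : ∃ B, B = min (δ / CA) δ₂ := ⟨_, rfl⟩
  have hB0 : 0 < B := hBe ▸ lt_min (by positivity) hδ₂
  have hB1 : CA * B ≤ δ := by
    have h1 : B ≤ δ / CA := hBe ▸ min_le_left _ _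
    rw [le_div_iff₀ hCA] at h1
    linarith
  have hB2 : B ≤ δ₂ := hBe ▸ min_le_right _ _
  refine ⟨B, hB0, ?_⟩
  intro Ω hΩ hreg hΩc σ hσ hσ1' hσc s hs hsym hsoff hsc q hqs hq0 hqc hQ
  have key : ∀ f : V n → ℂ, ContDiff ℝ ∞ f → (∀ x ∉ core n, f x = 0) → Cl (k + n + 1) B f →
      nm k (cf 0 f) ≤ δ := by
    intro f hf h0 hc
    have ht : tsupport f ⊆ cube n := by
      refine (closure_minimal ?_ H129.isCompact_core.isClosed).trans H129.core_subset_cube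
      intro x hx
      by_contra h
      exact hx (h0 x h)
    exact ((hA f hf ht 0 (by simp)).2.2 B hc).trans hB1
  have hsc1 : ∀ x ∉ core n, sc σ x = 1 := fun x hx => by
    unfold sc; rw [hσ1' x hx, one_smul]
  have hs1 : ∀ x ∉ core n, s x = 1 := fun x hx => by
    rw [hsoff x fun h => hx (hΩc h), hsc1 x hx]
  have hnm1 : ∀ i j, nm k (cf 0 (ent (sc σ) i j)) ≤ δ := by
    intro i j
    refine key _ (H129.smooth_ent (smM_sc hσ.1) i j) (fun x hx => ?_) ?_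
    · unfold ent; rw [hsc1 x hx]; simp
    · refine H442.cl_ent442 (smM_sc hσ.1) i j ?_
      by_cases hij : i = j
      · have e : (fun x => sc σ x i j - (1 : Matrix (Fin n) (Fin n) ℝ) i j) =
            fun x => σ x - 1 := by
          funext x; subst hij; simp [sc, Matrix.one_apply_eq]
        rw [e]; exact hσc
      · have e : (fun x => sc σ x i j - (1 : Matrix (Fin n) (Fin n) ℝ) i j) =
            fun _ => (0 : ℝ) := by
          funext x; simp [sc, hij]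
        rw [e]
        intro l hl x
        have : iteratedFDeriv ℝ l (fun _ : V n => (0 : ℝ)) x = 0 := by
          simp
        rw [this, norm_zero]; exact hB0.le
  have hnm2 : ∀ i j, nm k (cf 0 (ent s i j)) ≤ δ := by
    intro i j
    refine key _ (H129.smooth_ent hs i j) (fun x hx => ?_) (H442.cl_ent442 hs i j (hsc i j))
    unfold ent; rw [hs1 x hx]; simp
  have hnm3 : nm k (cf 0 (cx q)) ≤ δ := by
    refine key _ (Complex.ofRealCLM.contDiff.comp hqs) (fun x hx => ?_) hqc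
    unfold cx; rw [hq0 x fun h => hx (hΩc h)]; simp
  obtain ⟨w, hw, hw0, hwc, hwe⟩ := hgq Ω hΩ hreg hΩc (sc σ) s (smM_sc hσ.1) hs (symm_sc σ) hsym
    hsc1 hsoff q hqs hq0 hQ δ hδ.le hδ1 hnm1 hnm2 hnm3
  have hwb : ∀ x, |w x| ≤ 1 / 2 := by
    intro x
    have h0 := hwc 0 (by omega) x
    rw [norm_iteratedFDeriv_zero, Real.norm_eq_abs] at h0
    exact h0.trans hδ3
  refine ⟨fun x => 1 + w x, ⟨contDiff_const.add hw, fun x => ?_⟩, fun x hx => ?_, hwe, ?_⟩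
  · have := (abs_le.1 (hwb x)).1
    linarith
  · simp [hw0 x hx]
  · exact hv2 s w hs hw (fun i j => H442.cl_le442 (hsc i j) (by omega) hB2)
      (H442.cl_le442 hwc (by omega) hδ2)

/-- From `St2` for `φ² σ` to the conclusion. -/
theorem locF_core (hSQ : RowSQ2) (hSV : RowSV2) (hFIN : RowFIN2) (hn : 1 ≤ n) {k₀ : ℕ} {ε₀ : ℝ}
    (hL : LocS n k₀ ε₀) {Ω : Set (V n)} (hΩ : IsOpen Ω) (hreg : interior (closure Ω) = Ω)
    (hΩb : Ω ⊆ bal n) {φ σ : V n → ℝ} (hφ : SmP φ) (hσ : SmP σ) (hσ1 : ∀ x ∉ bal n, σ x = 1)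
    (hφh : ∀ x ∈ Ω, dv (sc σ) (cx φ) x = 0) (hσc : Cl k₀ ε₀ (fun x => σ x - 1))
    {s : MF n} (hs : SmM s) (hsym : ∀ x, (s x).IsSymm) (hsoff : ∀ x ∉ Ω, s x = sc σ x)
    {q : V n → ℝ} (hq : ∀ x, (q x : ℂ) * φ x = dv (fun x => s x - sc σ x) (cx φ) x)
    (hst : St2 Ω (sc (ps2 φ σ)) (fun x => (φ x) ^ 2 • s x))
    (hv : ContDiff ℝ ∞ q → (∀ x ∉ Ω, q x = 0) → StQ Ω (sc σ) s q →
      ∃ v : V n → ℝ, SmP v ∧ (∀ x ∉ Ω, v x = 1) ∧ (∀ x, dv s (cx v) x = (q x : ℂ) * v x) ∧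
      ∀ i j, Cl k₀ ε₀ (fun x => v x ^ 2 * s x i j - (1 : Matrix (Fin n) (Fin n) ℝ) i j)) :
    ∃ w K, Dif Ω w K ∧ ∀ x, psh (fun x => (φ x) ^ 2 • s x) w K x = sc (ps2 φ σ) x := by
  have hb : Bornology.IsBounded Ω :=
    H129.isCompact_core.isBounded.subset (hΩb.trans bal_sub_core)
  obtain ⟨hqs, hq0, hstq⟩ := hSQ Ω hΩ hb hreg φ σ hφ hσ hφh s hs hsym hsoff q hq
  have hQ := hstq hst
  obtain ⟨v, hvP, hv1, hve, hvc⟩ := hv hqs hq0 hQ
  have hSt := hSV Ω hΩ hb hreg (sc σ) s (smM_sc hσ.1) hs (symm_sc σ) hsym hsoff q hqs hq0 hQ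
    v hvP hv1 hve
  obtain ⟨w, K, hK, hpsh⟩ := hL Ω hΩ hreg hΩb σ (fun x => (v x) ^ 2 • s x) hσ hσ1
    (fun i j => (hvP.1.pow 2).mul (hs i j)) (fun x => (hsym x).smul _)
    (fun x hx => by simp only [hv1 x hx, one_pow, one_smul]; exact hsoff x hx)
    hσc hvc hSt
  exact ⟨w, K, hK, hFIN hn Ω hΩ hb hreg φ σ hφ hσ hφh s hs hsym hsoff q hq v hvP hv1 hve w K hK
    hpsh⟩

/-- Rigidity over the base `φ² σ` from the rigidity of `σ` and the rows. -/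
theorem locF (hA3 : RowA3) (hSQ : RowSQ2) (hGQ : RowGQ2) (hSV : RowSV2) (hFIN : RowFIN2)
    (hNQ : RowNQ2) (hSGC : RowSGC) (hIS : RowIS2) (hn : 3 ≤ n)
    (D : Set (V n) → MF n → MF n → Prop)
    (hST : ∀ (Ω : Set (V n)), IsOpen Ω → Bornology.IsBounded Ω → ∀ s₁ s₂ : MF n, SmM s₁ →
      SmM s₂ → (∀ x, (s₁ x).PosDef) → (∀ x, (s₂ x).PosDef) → D Ω s₁ s₂ → St2 Ω s₁ s₂)
    (hS : ∃ (k : ℕ) (ε : ℝ), 0 < ε ∧ LocS n k ε) :
    ∃ k : ℕ, ∀ φ : V n → ℝ, SmP φ → ∃ ε > 0, LocF n D k φ ε := by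
  obtain ⟨k₀, ε₀, hε₀, hL⟩ := hS
  obtain ⟨B, hB0, hgv⟩ := gauge_v (n := n) hA3 hGQ (by omega) k₀ ε₀ hε₀
  refine ⟨k₀ + n + 1 + 1, fun φ hφ => ?_⟩
  obtain ⟨δN, hδN, hnq⟩ := hNQ n (k₀ + n + 1) hn φ hφ B hB0
  refine ⟨min δN (min B ε₀), lt_min hδN (lt_min hB0 hε₀), ?_⟩
  intro Ω hΩ hreg hΩb σ hσ hσ1 hσc hφh g hg hp hoff hcl hD
  have hΩc : Ω ⊆ core n := hΩb.trans bal_sub_core
  have hb : Bornology.IsBounded Ω := H129.isCompact_core.isBounded.subset hΩc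
  have hσ1' : ∀ x ∉ core n, σ x = 1 := fun x hx => hσ1 x fun h => hx (bal_sub_core h)
  obtain ⟨s, q, hs, hsym, hsoff, hsg, hq, hsc, hqc⟩ := hnq Ω hΩc hreg σ hσ hσ1'
    (H442.cl_le442 hσc le_rfl (min_le_left _ _)) g hg hp hoff
    (fun i j => H442.cl_le442 (hcl i j) le_rfl (min_le_left _ _))
  obtain ⟨hcc, hsgc⟩ := hSGC hn φ σ hφ hσ
  have hccP : ∀ x, (sc (cc φ σ) x : Matrix (Fin n) (Fin n) ℝ).PosDef := fun x =>
    Matrix.PosDef.one.smul (hcc.2 x)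
  have hst := hST Ω hΩ hb _ _ (H158.smM_sg (smM_sc hcc.1) hccP) (H158.smM_sg hg hp)
    (H158.posDef_sg hccP) (H158.posDef_sg hp) hD
  have e1 : sg (sc (cc φ σ)) = sc (ps2 φ σ) := funext hsgc
  have e2 : sg g = fun x => (φ x) ^ 2 • s x := funext hsg
  rw [e1, e2] at hst
  obtain ⟨w, K, hK, hfin⟩ := locF_core hSQ hSV hFIN (by omega) hL hΩ hreg hΩb hφ hσ hσ1 hφh
    (H442.cl_le442 hσc (by omega) ((min_le_right _ _).trans (min_le_right _ _))) hs hsym hsoff hq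
    hst (fun h1 h2 h3 => hgv Ω hΩ hreg hΩc σ hσ hσ1'
      (H442.cl_le442 hσc (by omega) ((min_le_right _ _).trans (min_le_left _ _))) s hs hsym hsoff
      hsc q h1 h2 hqc h3)
  refine ⟨w, K, hK, ?_⟩
  refine hIS hn Ω (cc φ σ) g hcc.2 hp w K hK fun x => ?_
  rw [e2, e1]
  exact hfin x

end Vale.Agent.P088.LR
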