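import Vale.Agent.P088.H72.K.All
import Vale.Agent.P088.H27.KCG
import Vale.Agent.P088.H639.KCon

namespace Vale.Agent.P088.LR.K

/-- Theorem JB without hypothesis: all rows are proved. -/
theorem finJ_all198 : FinJ :=
  finJ_of H27.rowCG H639.KC.conK

end Vale.Agent.P088.LR.K
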