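import Vale.Agent.P088.H198.K.Defs
import Vale.Agent.P088.H198.SdX

/-!
# P088: joint local uniqueness on every smooth bounded domain, in the form of the hand-in
-/

open MeasureTheory Set
open scoped ContDiff Matrix

noncomputable section

namespace Vale.Agent.P088.LR

open B CF

/-- Theorem JB from `K.FinJ`. -/
theorem joint_domains (hJ : K.FinJ) (n N : ℕ) (hn : 3 ≤ n) (hN : 1 ≤ N) (ρ : V n → ℝ)
    (hρ : SDom ρ) : ∃ (k : ℕ) (ε : ℝ), 0 < ε ∧ ∀ (c : V n → ℝ) (g : MF n), ContDiff ℝ ∞ c →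
    (∀ x, 0 < c x) → SmM g → (∀ x, (g x).PosDef) → Cl k ε (fun x => c x - 1) →
    (∀ i j, Cl k ε (fun x => g x i j - dl i j)) → ∀ A₁ A₂ : Cn n N, SmU A₁ → SmU A₂ →
    (∀ i a b, Cl k ε fun x => A₁ i x a b) → (∀ i a b, Cl k ε fun x => A₂ i x a b) →
    SDU (Om ρ) (sc c) A₁ g A₂ →
    ∃ Φ Ψ U, ConfOn ρ c g Φ Ψ ∧ Gau (Om ρ) U (H158.pbF Φ A₁) A₂ := by
  obtain ⟨k, ε, hε, h⟩ := hJ n N hn hN ρ hρ
  refine ⟨k, ε, hε, fun c g hc hc0 hg hp hcc hcl A₁ A₂ hA₁ hA₂ h1 h2 hD => ?_⟩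
  obtain ⟨Φ, Ψ, U, h3, h4, h5, h6, h7, h8, h9, h10, h11⟩ :=
    h c g hc hc0 hg hp hcc hcl A₁ A₂ hA₁ hA₂ h1 h2 hD
  exact ⟨Φ, Ψ, U, ⟨h3, h4, h5, h6, h7, h8, h9, h10⟩, h11⟩

end Vale.Agent.P088.LR
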