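import Vale.Agent.P088.H72.B.Top
import Vale.Agent.P088.H158.ConnC

/-!
# P088: local rigidity of the flat metric on every smooth bounded domain, with connections
-/

open MeasureTheory Set
open scoped ContDiff Matrix

noncomputable section

namespace Vale.Agent.P088.LR

open B

/-- `Φ` is a diffeomorphism of `ℝ^n` (with inverse `Ψ`) which preserves `{ρ > 0}`, is the identity
on `{ρ = 0}`, and `g = Φ^* e` on `{ρ ≥ 0}`. -/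
def FlatOn {n : ℕ} (ρ : V n → ℝ) (g : MF n) (Φ Ψ : V n → V n) : Prop :=
  ContDiff ℝ ∞ Φ ∧ ContDiff ℝ ∞ Ψ ∧ (∀ x, Ψ (Φ x) = x) ∧ (∀ y, Φ (Ψ y) = y) ∧
    (∀ x, ρ x = 0 → Φ x = x) ∧ (∀ x, 0 < ρ (Φ x) ↔ 0 < ρ x) ∧ (∀ x, 0 < (Jm Φ x).det) ∧
    ∀ x, 0 ≤ ρ x → g x = (Jm Φ x)ᵀ * Jm Φ x

/-- Metrics and connections near the flat metric on a smooth bounded domain. -/
theorem smooth_domains (n : ℕ) (hn : 3 ≤ n) (ρ : V n → ℝ) (hρ : SDom ρ) :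
    ∃ (k : ℕ) (ε : ℝ), 0 < ε ∧ ∀ g : MF n, SmM g → (∀ x, (g x).PosDef) →
    (∀ i j, Cl k ε (fun x => g x i j - dl i j)) →
    (H639.SE (Om ρ) (fun _ => 1) (sg g) → ∃ Φ Ψ, FlatOn ρ g Φ Ψ) ∧
    ∀ N : ℕ, 1 ≤ N → ∀ A₁ A₂ : Cn n N, SmU A₁ → SmU A₂ → (∃ U, Gau₀ (Om ρ) U 0 A₁) →
      SDU (Om ρ) (fun _ => 1) A₁ g A₂ →
      ∃ Φ Ψ U, FlatOn ρ g Φ Ψ ∧ Gau (Om ρ) U (H158.pbF Φ A₁) A₂ := by
  obtain ⟨k, ε, hε, h⟩ := finS_all n hn ρ hρ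
  refine ⟨k, ε, hε, fun g hg hp hcl => ?_⟩
  have hmain : H639.SE (Om ρ) (fun _ => 1) (sg g) → ∃ Φ Ψ, FlatOn ρ g Φ Ψ :=
    fun hS => h g hg hp hcl hS
  refine ⟨hmain, ?_⟩
  intro N hN A₁ A₂ hA₁ hA₂ hT hD
  have hb : Bornology.IsBounded (Om ρ) := hρ.bd.subset fun x (hx : 0 < ρ x) => (show 0 ≤ ρ x from hx.le)
  have h1M : SmM (fun _ => 1 : MF n) := fun i j => contDiff_const
  have h1P : ∀ x, ((fun _ => 1 : MF n) x).PosDef := fun x => Matrix.PosDef.one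
  obtain ⟨hsd, hconn⟩ := H158.connOm (by omega) hN hρ.sm.continuous hb h1M hg h1P hp hA₁ hA₂ hT hD
  obtain ⟨Φ, Ψ, hF⟩ := hmain (by
    have h2 := H639.SE_of_SD hb
      (fun i j => (H833.smM_sg hg hp i j).continuous) (H833.symm_sg hp) (H639.psd_sg hp)
      (fun i j => (H833.smM_sg h1M h1P i j).continuous) (H833.symm_sg h1P)
      (H639.psd_sg h1P) hsd
    have h3 : sg (fun _ => 1 : MF n) = fun _ => 1 := by
      funext x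
      simp [sg]
    rwa [h3] at h2)
  obtain ⟨U, hU⟩ := hconn Φ hF.1 hF.2.2.2.2.2.1 hF.2.2.2.2.1
  exact ⟨Φ, Ψ, U, hF, hU⟩

end Vale.Agent.P088.LR
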