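import Vale.Agent.P088.H991.SDG
import Vale.Agent.P088.H924.P.Defs
import Vale.Agent.P088.H198.SdE
import Vale.Agent.P088.H158.SdZ

/-!
# P088: uniqueness on smooth bounded domains, data on a patch of the boundary
-/

open MeasureTheory Set
open scoped ContDiff Matrix

noncomputable section

namespace Vale.Agent.P088.LR

open B CF

/-- The data on a patch determine the data on the whole boundary if the pairs agree near the rest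
of the boundary. -/
def RowSDU : Prop := ∀ {n N : ℕ} (ρ : V n → ℝ), SDom ρ → ∀ (g₁ g₂ : MF n) (A₁ A₂ : Cn n N),
  SmM g₁ → SmM g₂ → (∀ x, (g₁ x).PosDef) → (∀ x, (g₂ x).PosDef) → SmU A₁ → SmU A₂ →
  ∀ G : Set (V n), IsOpen G → P.Acc ρ G g₁ A₁ g₂ A₂ → P.SDG G (Om ρ) g₁ A₁ g₂ A₂ →
  SDU (Om ρ) g₁ A₁ g₂ A₂

/-- The conclusion for the metrics `c e` and `g` on `{ρ > 0}`. Equal Dirichlet energies imply
`g = Φ^* (c e)`; equal data on a patch `∂Ω ∩ G` of `(c e, A₁)` and `(g, A₂)`, `A₁` globally trivial,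
the pairs equal near the rest of the boundary, imply the same and `A₂ = U⁻¹ (Φ^* A₁) U + U⁻¹ dU`,
`U = 1` on the boundary. -/
def RigP {n : ℕ} (ρ c : V n → ℝ) (g : MF n) : Prop :=
  (H639.SE (Om ρ) (sg (sc c)) (sg g) → ∃ Φ Ψ, ConfOn ρ c g Φ Ψ) ∧
    ∀ N : ℕ, 1 ≤ N → ∀ A₁ A₂ : Cn n N, SmU A₁ → SmU A₂ → (∃ U, Gau₀ (Om ρ) U 0 A₁) →
      ∀ G : Set (V n), IsOpen G → P.Acc ρ G (sc c) A₁ g A₂ → P.SDG G (Om ρ) (sc c) A₁ g A₂ →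
      ∃ Φ Ψ U, ConfOn ρ c g Φ Ψ ∧ Gau (Om ρ) U (H158.pbF Φ A₁) A₂

theorem rigP_of (hS : RowSDU) {n : ℕ} {ρ : V n → ℝ} (hρ : SDom ρ) {c : V n → ℝ} {g : MF n}
    (hc : ContDiff ℝ ∞ c) (hc0 : ∀ x, 0 < c x) (hg : SmM g) (hp : ∀ x, (g x).PosDef)
    (h : RigOn ρ c g) : RigP ρ c g := by
  have h1M : SmM (sc c : MF n) := fun i j => hc.mul contDiff_const
  have h1P : ∀ x, (sc c x : Matrix (Fin n) (Fin n) ℝ).PosDef := fun x =>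
    Matrix.PosDef.one.smul (hc0 x)
  exact ⟨h.1, fun N hN A₁ A₂ hA₁ hA₂ hT G hG hAcc hD =>
    h.2 N hN A₁ A₂ hA₁ hA₂ hT (hS ρ hρ (sc c) g A₁ A₂ h1M hg h1P hp hA₁ hA₂ G hG hAcc hD)⟩

/-- All three theorems (local near `e`, local near any `c e`, semi-global) with patch data. -/
theorem smooth_domainsP (hS : RowSDU) (hF : E.FinD) (n : ℕ) (hn : 3 ≤ n) (ρ : V n → ℝ)
    (hρ : SDom ρ) :
    (∃ (k : ℕ) (ε : ℝ), 0 < ε ∧ ∀ (c : V n → ℝ) (g : MF n), ContDiff ℝ ∞ c → (∀ x, 0 < c x) →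
      SmM g → (∀ x, (g x).PosDef) → Cl k ε (fun x => c x - 1) →
      (∀ i j, Cl k ε (fun x => g x i j - dl i j)) → RigP ρ c g) ∧
    ∀ c : V n → ℝ, ContDiff ℝ ∞ c → (∀ x, 0 < c x) →
      (∃ (k : ℕ) (ε : ℝ), 0 < ε ∧ ∀ g : MF n, SmM g → (∀ x, (g x).PosDef) →
        (∀ i j, Cl k ε (fun x => g x i j - sc c x i j)) → RigP ρ c g) ∧
      ∀ b : ℕ → ℝ, ∃ (k : ℕ) (ε : ℝ), 0 < ε ∧ ∀ g : MF n, SmM g → (∀ x, (g x).PosDef) →
        (∀ i j, E.Cb k b (fun x => g x i j)) → (∀ x, (b 0)⁻¹ ≤ (g x).det) →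
        (∀ i j x, |g x i j - sc (fun x => (g x).det ^ (1 / (n : ℝ))) x i j| ≤ ε) →
        RigP ρ c g := by
  refine ⟨?_, fun c hc hc0 => ⟨?_, fun b => ?_⟩⟩
  · obtain ⟨k, ε, hε, h⟩ := (smooth_domains_all n hn ρ hρ).1
    exact ⟨k, ε, hε, fun c g hc hc0 hg hp h1 h2 =>
      rigP_of hS hρ hc hc0 hg hp (h c g hc hc0 hg hp h1 h2)⟩
  · obtain ⟨k, ε, hε, h⟩ := (smooth_domains_all n hn ρ hρ).2 c hc hc0
    exact ⟨k, ε, hε, fun g hg hp h1 => rigP_of hS hρ hc hc0 hg hp (h g hg hp h1)⟩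
  · obtain ⟨k, ε, hε, h⟩ := smooth_domainsE hF n hn ρ hρ c hc hc0 b
    exact ⟨k, ε, hε, fun g hg hp h1 h2 h3 => rigP_of hS hρ hc hc0 hg hp (h g hg hp h1 h2 h3)⟩

end Vale.Agent.P088.LR
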