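import Vale.Agent.P088.H198.SdP
import Vale.Agent.P088.H991.PTop
import Vale.Agent.P088.H924.P.Cut
import Vale.Agent.P088.H188.PUi
import Vale.Agent.P088.H991.UB
import Vale.Agent.P088.H231.VN
import Vale.Agent.P088.H72.P.Fl

/-!
# P088: the data on a patch determine the data on the whole boundary (all rows plugged in)
-/

namespace Vale.Agent.P088.LR

/-- From the patch to the whole boundary. -/
theorem sdu_all : RowSDU := fun ρ hρ g₁ g₂ A₁ A₂ h1 h2 h3 h4 h5 h6 G hG ha hP =>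
  Vale.Agent.P088.LR.H991.sdg_sdu (Vale.Agent.P088.H924.P.cut Vale.Agent.P088.H188.PU.ui
    (Vale.Agent.P088.LR.H991.ub Vale.Agent.P088.H188.PU.ui Vale.Agent.P088.LR.P.H231.vn)
    Vale.Agent.P088.LR.P72.fl) ρ hρ g₁ g₂ A₁ A₂ h1 h2 h3 h4 h5 h6 G hG ha hP

end Vale.Agent.P088.LR
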