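import Vale.Agent.P088.H198.Defs

/-!
# P088, local rigidity: the symbol of the CGO equation
-/

open MeasureTheory Set Finset
open scoped ContDiff Matrix

noncomputable section

namespace Vale.Agent.P088.LR

variable {n : ℕ}

/-- `λ_j = -η_j + iπ(2κ_j - ξ_j)`. -/
def lam (η ξ κ : Fin n → ℝ) (j : Fin n) : ℂ :=
  ⟨-η j, Real.pi * (2 * κ j - ξ j)⟩

/-- `p = ∑ λ_j²`. -/
def pp (η ξ κ : Fin n → ℝ) : ℂ := ∑ j, lam η ξ κ j ^ 2

theorem pp_re (η ξ κ : Fin n → ℝ) :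
    (pp η ξ κ).re = ∑ j, η j ^ 2 - ∑ j, (Real.pi * (2 * κ j - ξ j)) ^ 2 := by
  unfold pp lam
  rw [Complex.re_sum, ← sum_sub_distrib]
  refine sum_congr rfl fun j _ => ?_
  simp [pow_two, Complex.mul_re]

theorem pp_im (η ξ κ : Fin n → ℝ) (h : ∑ j, η j * ξ j = 0) :
    (pp η ξ κ).im = -(4 * Real.pi * ∑ j, η j * κ j) := by
  have : (pp η ξ κ).im = ∑ j, (-(4 * Real.pi * (η j * κ j)) + 2 * Real.pi * (η j * ξ j)) := by
    unfold pp lam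
    rw [Complex.im_sum]
    refine sum_congr rfl fun j _ => ?_
    simp [pow_two, Complex.mul_im]
    ring
  rw [this, sum_add_distrib, ← mul_sum, h, sum_neg_distrib, ← mul_sum]
  ring

theorem lam_sq (η ξ κ : Fin n → ℝ) :
    ∑ j, ‖lam η ξ κ j‖ ^ 2 = ∑ j, η j ^ 2 + ∑ j, (Real.pi * (2 * κ j - ξ j)) ^ 2 := by
  rw [← sum_add_distrib]
  refine sum_congr rfl fun j _ => ?_
  rw [Complex.sq_norm, Complex.normSq_apply]
  unfold lam
  simp only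
  ring

/-- The symbol bound. `E = |η|² = π²X²`, `Q = |q|`, `η = tq`, `t = πX/Q`, `q·κ` is a half integer. -/
theorem symb {X Q t : ℝ} (hX : 1 ≤ X) (hQ : 1 ≤ Q) (ht : t = Real.pi * X / Q)
    (η ξ κ q : Fin n → ℝ) (hη : ∀ j, η j = t * q j) (hq : ∑ j, q j ^ 2 = Q ^ 2)
    (hqξ : ∑ j, q j * ξ j = 0) (hκ : 1 / 2 ≤ |∑ j, q j * κ j|) :
    ∑ j, ‖lam η ξ κ j‖ ^ 2 ≤ 3 * X * Q * ‖pp η ξ κ‖ ∧ 2 * Real.pi ^ 2 * X / Q ≤ ‖pp η ξ κ‖ := by
  have hpi := Real.pi_pos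
  have hQ0 : 0 < Q := by linarith
  have ht0 : 0 < t := by rw [ht]; positivity
  have hE : ∑ j, η j ^ 2 = (Real.pi * X) ^ 2 := by
    have : ∑ j, η j ^ 2 = t ^ 2 * ∑ j, q j ^ 2 := by
      rw [mul_sum]; exact sum_congr rfl fun j _ => by rw [hη]; ring
    rw [this, hq, ht]; field_simp
  have hηξ : ∑ j, η j * ξ j = 0 := by
    have : ∑ j, η j * ξ j = t * ∑ j, q j * ξ j := by
      rw [mul_sum]; exact sum_congr rfl fun j _ => by rw [hη]; ring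
    rw [this, hqξ, mul_zero]
  have hηκ : ∑ j, η j * κ j = t * ∑ j, q j * κ j := by
    rw [mul_sum]; exact sum_congr rfl fun j _ => by rw [hη]; ring
  have him : 2 * Real.pi ^ 2 * X / Q ≤ ‖pp η ξ κ‖ := by
    refine le_trans ?_ (Complex.abs_im_le_norm _)
    rw [pp_im _ _ _ hηξ, hηκ, abs_neg, abs_mul (4 * Real.pi), abs_mul t, abs_of_pos ht0,
      abs_of_pos (by positivity : (0:ℝ) < 4 * Real.pi)]
    have h1 : 4 * Real.pi * (t * (1 / 2)) ≤ 4 * Real.pi * (t * |∑ j, q j * κ j|) := by gcongr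
    refine le_trans (le_of_eq ?_) h1
    rw [ht]; ring
  refine ⟨?_, him⟩
  rw [lam_sq, hE]
  set R := ∑ j, (Real.pi * (2 * κ j - ξ j)) ^ 2 with hR
  have hre : R - (Real.pi * X) ^ 2 ≤ ‖pp η ξ κ‖ := by
    have := Complex.abs_re_le_norm (pp η ξ κ)
    rw [pp_re, hE, ← hR] at this
    have h2 := neg_abs_le ((Real.pi * X) ^ 2 - R)
    linarith
  have hXQ : 1 ≤ X * Q := by nlinarith
  have hn0 : 0 ≤ ‖pp η ξ κ‖ := norm_nonneg _
  by_cases hc : 2 * (Real.pi * X) ^ 2 ≤ R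
  · have : (Real.pi * X) ^ 2 + R ≤ 3 * ‖pp η ξ κ‖ := by nlinarith
    refine this.trans ?_
    have : 3 * ‖pp η ξ κ‖ ≤ (3 * ‖pp η ξ κ‖) * (X * Q) := le_mul_of_one_le_right (by positivity) hXQ
    linarith [this, (by ring : (3 * ‖pp η ξ κ‖) * (X * Q) = 3 * X * Q * ‖pp η ξ κ‖)]
  · push Not at hc
    have h1 : 3 * X * Q * (2 * Real.pi ^ 2 * X / Q) ≤ 3 * X * Q * ‖pp η ξ κ‖ := by gcongr
    have h2 : 3 * X * Q * (2 * Real.pi ^ 2 * X / Q) = 6 * (Real.pi * X) ^ 2 := by field_simp; ring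
    have h3 : 0 < (Real.pi * X) ^ 2 := by positivity
    linarith

end Vale.Agent.P088.LR
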