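import Vale.Agent.P088.H639.Fin
import Vale.Agent.P088.H158.ConnB
import Vale.Agent.P088.H757.Weak

/-!
# P088: local rigidity of the flat metric, metrics and connections
-/

open MeasureTheory Set
open scoped ContDiff Matrix

noncomputable section

namespace Vale.Agent.P088.LR

theorem sg_const_one {n : ℕ} : sg (fun _ : V n => (1 : Matrix (Fin n) (Fin n) ℝ)) = fun _ => 1 := by
  funext x
  unfold sg
  simp

/-- Local rigidity of the flat metric: energies (scalar), and Dirichlet-to-Neumann data of pairs. -/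
theorem local_rigidity (n : ℕ) (hn : 3 ≤ n) : ∃ k : ℕ, ∀ R : ℝ, 0 < R → ∃ ε > 0,
    ∀ (Ω : Set (V n)), IsOpen Ω → interior (closure Ω) = Ω → Ω ⊆ {x | ∀ j, |x j| ≤ R} →
    ∀ g : MF n, SmM g → (∀ x, (g x).PosDef) → (∀ x ∉ Ω, g x = 1) →
    (∀ i j, Cl k ε (fun x => g x i j - (1 : Matrix (Fin n) (Fin n) ℝ) i j)) →
    (H639.SE Ω (fun _ => 1) (sg g) → ∃ w K, Dif Ω w K ∧ ∀ x, g x = (jm w x)ᵀ * jm w x) ∧
    ∀ N : ℕ, 1 ≤ N → ∀ A₁ A₂ : Cn n N, SmU A₁ → SmU A₂ → (∃ U, Gau₀ Ω U 0 A₁) →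
      SDU Ω (fun _ => 1) A₁ g A₂ →
      ∃ w K U, Dif Ω w K ∧ (∀ x, g x = (jm w x)ᵀ * jm w x) ∧ Gau Ω U (pb w A₁) A₂ := by
  obtain ⟨k, hk⟩ := H639.loc_energy n hn
  refine ⟨k, fun R hR => ?_⟩
  obtain ⟨ε, hε, h⟩ := hk R hR
  refine ⟨ε, hε, fun Ω hΩ hreg hD g hg hp h1 hcl => ?_⟩
  have hmain : H639.SE Ω (fun _ => 1) (sg g) →
      ∃ w K, Dif Ω w K ∧ ∀ x, g x = (jm w x)ᵀ * jm w x := fun hS =>
    h Ω hΩ hreg hD g hg hp h1 hcl hS
  refine ⟨hmain, ?_⟩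
  intro N hN A₁ A₂ hA₁ hA₂ hT hD'
  have hb : Bornology.IsBounded Ω := by
    refine Bornology.IsBounded.subset (Metric.isBounded_Icc (fun _ => -R) (fun _ => R)) ?_
    intro x hx
    exact ⟨fun j => (abs_le.1 (hD hx j)).1, fun j => (abs_le.1 (hD hx j)).2⟩
  have hone : SmM (fun _ : V n => (1 : Matrix (Fin n) (Fin n) ℝ)) := fun i j => contDiff_const
  obtain ⟨hsd, hconn⟩ := H158.rowCONN (by omega) hN Ω hΩ hb (fun _ => 1) g hone hg
    (fun _ => Matrix.PosDef.one) hp A₁ A₂ hA₁ hA₂ hT hD'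
  rw [sg_const_one] at hsd
  have hone' : ∀ _ : V n, ((1 : Matrix (Fin n) (Fin n) ℝ)).IsSymm := fun _ => Matrix.isSymm_one
  obtain ⟨w, K, hK, hg'⟩ := hmain (H639.SE_of_SD hb
    (fun i j => (H833.smM_sg hg hp i j).continuous) (H833.symm_sg hp) (H639.psd_sg hp)
    (fun i j => continuous_const) hone' (fun _ => Matrix.PosSemidef.one) hsd)
  obtain ⟨U, hU⟩ := hconn w K hK
  exact ⟨w, K, U, hK, hg', hU⟩

end Vale.Agent.P088.LR
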