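import Vale.Agent.P088.H924.FTop
import Vale.Agent.P088.H158.ConnB

/-!
# P088: local rigidity over the conformally flat base `(φ² σ)^{2/(n-2)} e`, with connections
-/

open MeasureTheory Set
open scoped ContDiff Matrix

noncomputable section

namespace Vale.Agent.P088.LR

open CF

/-- Metrics and connections over the base `(φ² σ)^{2/(n-2)} e`. -/
theorem local_base (n : ℕ) (hn : 3 ≤ n) : ∃ k : ℕ, ∀ R : ℝ, 0 < R → ∀ φ : V n → ℝ, SmP φ →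
    ∃ ε > 0, ∀ (Ω : Set (V n)), IsOpen Ω → interior (closure Ω) = Ω →
    Ω ⊆ {x | ∑ j, x j ^ 2 ≤ R ^ 2} → ∀ σ : V n → ℝ, SmP σ → Cl k ε (fun x => σ x - 1) →
    (∀ x ∈ Ω, dv (sc σ) (cx φ) x = 0) → ∀ g : MF n, SmM g → (∀ x, (g x).PosDef) →
    (∀ x ∉ Ω, g x = sc (cc φ σ) x) → (∀ i j, Cl k ε (fun x => g x i j - sc (cc φ σ) x i j)) →
    (H639.SE Ω (sg (sc (cc φ σ))) (sg g) →
      ∃ w K, Dif Ω w K ∧ ∀ x, g x = cc φ σ (x + w x) • ((jm w x)ᵀ * jm w x)) ∧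
    ∀ N : ℕ, 1 ≤ N → ∀ A₁ A₂ : Cn n N, SmU A₁ → SmU A₂ → (∃ U, Gau₀ Ω U 0 A₁) →
      SDU Ω (sc (cc φ σ)) A₁ g A₂ → ∃ w K U, Dif Ω w K ∧
        (∀ x, g x = cc φ σ (x + w x) • ((jm w x)ᵀ * jm w x)) ∧ Gau Ω U (pb w A₁) A₂ := by
  obtain ⟨k, hk⟩ := H924.theoremFE n hn
  refine ⟨k, fun R hR φ hφ => ?_⟩
  obtain ⟨ε, hε, h⟩ := hk R hR φ hφ
  refine ⟨ε, hε, fun Ω hΩ hreg hD σ hσ hσc hφh g hg hp hoff hcl => ?_⟩
  have hmain : H639.SE Ω (sg (sc (cc φ σ))) (sg g) →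
      ∃ w K, Dif Ω w K ∧ ∀ x, g x = cc φ σ (x + w x) • ((jm w x)ᵀ * jm w x) := fun hS =>
    h Ω hΩ hreg hD σ hσ hσc hφh g hg hp hoff hcl hS
  refine ⟨hmain, ?_⟩
  intro N hN A₁ A₂ hA₁ hA₂ hT hD'
  have hb : Bornology.IsBounded Ω := by
    refine Bornology.IsBounded.subset (Metric.isBounded_Icc (fun _ => -R) (fun _ => R)) ?_
    intro x hx
    have h2 : ∀ j, |x j| ≤ R := fun j => by
      refine abs_le_of_sq_le_sq ?_ hR.le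
      exact (Finset.single_le_sum (f := fun j => x j ^ 2) (fun i _ => sq_nonneg _)
        (Finset.mem_univ j)).trans (hD hx)
    exact ⟨fun j => (abs_le.1 (h2 j)).1, fun j => (abs_le.1 (h2 j)).2⟩
  obtain ⟨hcc, -⟩ := H924.sgc hn φ σ hφ hσ
  have hccP : ∀ x, (sc (cc φ σ) x : Matrix (Fin n) (Fin n) ℝ).PosDef := fun x =>
    Matrix.PosDef.one.smul (hcc.2 x)
  have hccM : SmM (sc (cc φ σ) : MF n) := smM_sc hcc.1
  obtain ⟨hsd, hconn⟩ := H158.rowCONN (by omega) hN Ω hΩ hb (sc (cc φ σ)) g hccM hg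
    hccP hp A₁ A₂ hA₁ hA₂ hT hD'
  obtain ⟨w, K, hK, hg'⟩ := hmain (H639.SE_of_SD hb
    (fun i j => (H833.smM_sg hg hp i j).continuous) (H833.symm_sg hp) (H639.psd_sg hp)
    (fun i j => (H833.smM_sg hccM hccP i j).continuous) (H833.symm_sg hccP)
    (H639.psd_sg hccP) hsd)
  obtain ⟨U, hU⟩ := hconn w K hK
  exact ⟨w, K, U, hK, hg', hU⟩

end Vale.Agent.P088.LR
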